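import Vale.Agent.P111.Defs

/-!
# P111: a two-constants estimate for the derivative at the origin

PLAN.  Put `H w = φ (Complex.sin (Complex.I * w) / Real.cosh 1)`.
* For `w` with `|re w| ≤ 1`: `‖sin (I w)‖ ≤ cosh 1` (`‖sin (x + i y)‖² = sin² x + sinh² y`, or
  bound `‖sin ζ‖ ≤ cosh (im ζ)` via `sin ζ = (e^{iζ} - e^{-iζ}) / (2i)`), so `‖H w‖ ≤ M`.
* For `re w = 0`, `I * w` is real, so `sin (I w) / cosh 1` is a real number of modulus `≤ 1` and
  `‖H w‖ ≤ m`.
* Hadamard three lines (`Complex.HadamardThreeLines.norm_le_interp_of_mem_verticalClosedStrip₀₁'`)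
  applied to `H` and to `w ↦ H (-w)` gives `‖H w‖ ≤ m ^ (1 - |re w|) * M ^ |re w| ≤ m (M/m)^δ` for
  `‖w‖ ≤ δ ≤ 1`.
* Cauchy (`Complex.norm_deriv_le_of_forall_mem_sphere_norm_le`) on the circle of radius
  `δ = 1 / (1 + log (M/m))`: `‖deriv H 0‖ ≤ m (M/m)^δ / δ ≤ e m (1 + log (M/m))`.
* `deriv H 0 = deriv φ 0 * I / cosh 1`, and `e * cosh 1 ≤ 5`.

(The file uses `sinh w * I` in place of `sin (I w)`; the two agree.)
-/

namespace Vale.Agent.P111

open Complex

/-- the change of variables `w ↦ i sinh w / cosh 1` -/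
noncomputable def gmap (w : ℂ) : ℂ := Complex.sinh w * Complex.I / (Real.cosh 1 : ℂ)

theorem norm_sinh_le (w : ℂ) : ‖Complex.sinh w‖ ≤ Real.cosh w.re := by
  rw [Complex.sinh, Real.cosh_eq, norm_div]
  have h2 : ‖(2 : ℂ)‖ = 2 := by simp
  rw [h2]
  have h3 : ‖Complex.exp w - Complex.exp (-w)‖ ≤ Real.exp w.re + Real.exp (-w.re) := by
    calc ‖Complex.exp w - Complex.exp (-w)‖ ≤ ‖Complex.exp w‖ + ‖Complex.exp (-w)‖ :=
          norm_sub_le _ _
      _ = Real.exp w.re + Real.exp (-w.re) := by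
          rw [Complex.norm_exp, Complex.norm_exp, Complex.neg_re]
  linarith [h3]

theorem cosh_one_pos : 0 < Real.cosh 1 := Real.cosh_pos 1

theorem norm_gmap_le {w : ℂ} (hw : |w.re| ≤ 1) : ‖gmap w‖ ≤ 1 := by
  unfold gmap
  rw [norm_div, norm_mul, Complex.norm_I, mul_one, Complex.norm_real, Real.norm_eq_abs,
    abs_of_pos cosh_one_pos, div_le_one cosh_one_pos]
  refine (norm_sinh_le w).trans ?_
  rw [Real.cosh_le_cosh]
  simpa using hw

theorem gmap_of_re_zero {w : ℂ} (hw : w.re = 0) :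
    gmap w = ((-(Real.sin w.im) / Real.cosh 1 : ℝ) : ℂ) := by
  have hw' : w = (w.im : ℂ) * Complex.I := by
    apply Complex.ext <;> simp [hw]
  unfold gmap
  conv_lhs => rw [hw']
  rw [Complex.sinh_mul_I, ← Complex.ofReal_sin]
  push_cast
  have hI : Complex.I * Complex.I = -1 := Complex.I_mul_I
  have : (Real.sin w.im : ℂ) * Complex.I * Complex.I = -(Real.sin w.im : ℂ) := by
    rw [mul_assoc, hI]; ring
  push_cast at this
  rw [this]

theorem abs_real_gmap_le (y : ℝ) : |-(Real.sin y) / Real.cosh 1| ≤ 1 := by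
  rw [abs_div, abs_neg, abs_of_pos cosh_one_pos, div_le_one cosh_one_pos]
  exact (Real.abs_sin_le_one y).trans (Real.one_le_cosh 1)

theorem differentiable_gmap : Differentiable ℂ gmap := by
  unfold gmap
  exact (Complex.differentiable_sinh.mul_const _).div_const _

theorem hasDerivAt_gmap_zero : HasDerivAt gmap (Complex.I / (Real.cosh 1 : ℂ)) 0 := by
  have h := ((Complex.hasDerivAt_sinh 0).mul_const Complex.I).div_const (Real.cosh 1 : ℂ)
  rw [Complex.cosh_zero, one_mul] at h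
  exact h

theorem gmap_zero : gmap 0 = 0 := by simp [gmap]

/-- three lines, in the form needed -/
theorem three_lines_aux (ψ : ℂ → ℂ) (hψ : Differentiable ℂ ψ) (m M : ℝ)
    (hA : ∀ w : ℂ, |w.re| ≤ 1 → ‖ψ w‖ ≤ M) (hB : ∀ w : ℂ, w.re = 0 → ‖ψ w‖ ≤ m)
    {w : ℂ} (h0 : 0 ≤ w.re) (h1 : w.re ≤ 1) : ‖ψ w‖ ≤ m ^ (1 - w.re) * M ^ w.re := by
  apply Complex.HadamardThreeLines.norm_le_interp_of_mem_verticalClosedStrip₀₁' ψ
  · exact ⟨h0, h1⟩
  · exact hψ.diffContOnCl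
  · refine ⟨M, ?_⟩
    rintro _ ⟨z, hz, rfl⟩
    have hz' : 0 ≤ z.re ∧ z.re ≤ 1 := hz
    exact hA z (abs_le.mpr ⟨by linarith [hz'.1], hz'.2⟩)
  · intro z hz
    exact hB z hz
  · intro z hz
    have hz' : z.re = 1 := hz
    exact hA z (by rw [hz']; simp)

theorem interp_le {m M t δ : ℝ} (hm : 0 < m) (hmM : m ≤ M) (htδ : t ≤ δ)
    (hδ : δ * Real.log (M / m) ≤ 1) : m ^ (1 - t) * M ^ t ≤ m * Real.exp 1 := by
  have hM : 0 < M := lt_of_lt_of_le hm hmM
  have hΛ : 0 ≤ Real.log (M / m) := Real.log_nonneg ((one_le_div hm).mpr hmM)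
  have hlog : Real.log (M / m) = Real.log M - Real.log m := Real.log_div hM.ne' hm.ne'
  rw [Real.rpow_def_of_pos hm, Real.rpow_def_of_pos hM, ← Real.exp_add]
  have e1 : Real.log m * (1 - t) + Real.log M * t = Real.log m + t * Real.log (M / m) := by
    rw [hlog]; ring
  rw [e1, Real.exp_add, Real.exp_log hm]
  apply mul_le_mul_of_nonneg_left _ hm.le
  apply Real.exp_le_exp.mpr
  calc t * Real.log (M / m) ≤ δ * Real.log (M / m) := mul_le_mul_of_nonneg_right htδ hΛ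
    _ ≤ 1 := hδ

theorem exp_mul_cosh_le : Real.exp 1 * Real.cosh 1 ≤ 5 := by
  rw [Real.cosh_eq]
  have h1 : Real.exp 1 < 2.7182818286 := Real.exp_one_lt_d9
  have h0 : 0 < Real.exp 1 := Real.exp_pos 1
  have h2 : Real.exp 1 * Real.exp (-1) = 1 := by rw [← Real.exp_add]; simp
  nlinarith [h1, h0, h2]

theorem deriv_bound (φ : ℂ → ℂ) (hφ : Differentiable ℂ φ) (m M : ℝ) (hm : 0 < m) (hmM : m ≤ M)
    (h1 : ∀ x : ℝ, |x| ≤ 1 → ‖φ (x : ℂ)‖ ≤ m) (h2 : ∀ z : ℂ, ‖z‖ ≤ 1 → ‖φ z‖ ≤ M) :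
    ‖deriv φ 0‖ ≤ 5 * m * (1 + Real.log (M / m)) := by
  set Λ : ℝ := Real.log (M / m) with hΛdef
  have hΛ : 0 ≤ Λ := Real.log_nonneg ((one_le_div hm).mpr hmM)
  set δ : ℝ := 1 / (1 + Λ) with hδdef
  have h1Λ : 0 < 1 + Λ := by linarith
  have hδpos : 0 < δ := by positivity
  have hδ1 : δ ≤ 1 := by
    rw [hδdef, div_le_one h1Λ]; linarith
  have hδΛ : δ * Λ ≤ 1 := by
    rw [hδdef, div_mul_eq_mul_div, one_mul, div_le_one h1Λ]; linarith
  -- the two functions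
  let H : ℂ → ℂ := fun w => φ (gmap w)
  let H' : ℂ → ℂ := fun w => φ (gmap (-w))
  have hH : Differentiable ℂ H := hφ.comp differentiable_gmap
  have hH' : Differentiable ℂ H' := hφ.comp (differentiable_gmap.comp differentiable_neg)
  have hHA : ∀ w : ℂ, |w.re| ≤ 1 → ‖H w‖ ≤ M := fun w hw => h2 _ (norm_gmap_le hw)
  have hHB : ∀ w : ℂ, w.re = 0 → ‖H w‖ ≤ m := by
    intro w hw
    show ‖φ (gmap w)‖ ≤ m
    rw [gmap_of_re_zero hw]
    exact h1 _ (abs_real_gmap_le _)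
  have hH'A : ∀ w : ℂ, |w.re| ≤ 1 → ‖H' w‖ ≤ M := by
    intro w hw
    exact hHA (-w) (by simpa using hw)
  have hH'B : ∀ w : ℂ, w.re = 0 → ‖H' w‖ ≤ m := by
    intro w hw
    exact hHB (-w) (by simpa using hw)
  -- bound on the circle
  have hcirc : ∀ z ∈ Metric.sphere (0 : ℂ) δ, ‖H z‖ ≤ m * Real.exp 1 := by
    intro z hz
    have hzn : ‖z‖ = δ := by simpa using hz
    have hre : |z.re| ≤ δ := hzn ▸ Complex.abs_re_le_norm z
    rcases le_total 0 z.re with hpos | hneg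
    · have hzδ : z.re ≤ δ := (le_abs_self _).trans hre
      refine (three_lines_aux H hH m M hHA hHB hpos (hzδ.trans hδ1)).trans ?_
      exact interp_le hm hmM hzδ hδΛ
    · have hpos : 0 ≤ (-z).re := by simpa using hneg
      have hzδ : (-z).re ≤ δ := by
        have : -z.re ≤ |z.re| := neg_le_abs _
        simpa using this.trans hre
      have hb := three_lines_aux H' hH' m M hH'A hH'B hpos (hzδ.trans hδ1)
      have hHz : H' (-z) = H z := by
        show φ (gmap (- -z)) = φ (gmap z)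
        rw [neg_neg]
      rw [hHz] at hb
      exact hb.trans (interp_le hm hmM hzδ hδΛ)
  have hcauchy : ‖deriv H 0‖ ≤ m * Real.exp 1 / δ :=
    Complex.norm_deriv_le_of_forall_mem_sphere_norm_le hδpos hH.diffContOnCl hcirc
  -- the chain rule
  have hφ0 : HasDerivAt φ (deriv φ 0) (gmap 0) := by
    rw [gmap_zero]; exact (hφ 0).hasDerivAt
  have hchain : HasDerivAt H (deriv φ 0 * (Complex.I / (Real.cosh 1 : ℂ))) 0 :=
    hφ0.comp 0 hasDerivAt_gmap_zero
  have hnorm : ‖deriv H 0‖ = ‖deriv φ 0‖ / Real.cosh 1 := by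
    rw [hchain.deriv, norm_mul, norm_div, Complex.norm_I, Complex.norm_real, Real.norm_eq_abs,
      abs_of_pos cosh_one_pos, mul_one_div]
  rw [hnorm, div_le_iff₀ cosh_one_pos] at hcauchy
  have hδinv : m * Real.exp 1 / δ = m * Real.exp 1 * (1 + Λ) := by
    rw [hδdef]; field_simp
  rw [hδinv] at hcauchy
  have hfin : m * Real.exp 1 * (1 + Λ) * Real.cosh 1 ≤ 5 * m * (1 + Λ) := by
    have hp : 0 ≤ m * (1 + Λ) := by positivity
    calc m * Real.exp 1 * (1 + Λ) * Real.cosh 1 = (Real.exp 1 * Real.cosh 1) * (m * (1 + Λ)) := by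
          ring
      _ ≤ 5 * (m * (1 + Λ)) := mul_le_mul_of_nonneg_right exp_mul_cosh_le hp
      _ = 5 * m * (1 + Λ) := by ring
  exact hcauchy.trans hfin

end Vale.Agent.P111
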