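import Vale.Agent.P111.Defs

/-!
# P111: Auerbach bases

PLAN.
* `exists_auerbach`: let `n = finrank F`, fix any basis `b₀`; the continuous function
  `v ↦ |b₀.det v|` on the compact set `{v : Fin n → F | ∀ i, ‖v i‖ ≤ 1}` attains its maximum at `v`,
  the maximum is positive (rescale `b₀`), so `v` is a basis (`is_basis_iff_det`).  For `x` with
  `‖x‖ ≤ 1`, `|b₀.det (Function.update v i x)| ≤ |b₀.det v|` and
  `b₀.det (update v i x) = coord_i(x) * b₀.det v` (multilinearity: expand `x` in the basis `v`;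
  `Basis.det_self`, `AlternatingMap.map_update_sum` / `map_eq_zero_of_eq`), hence `|coord_i x| ≤ 1`.
-/

namespace Vale.Agent.P111

open Finset Module

/-- Cramer's rule for an alternating map: replacing the `i`-th vector of a basis by `x` multiplies the value
by the `i`-th coordinate of `x`. -/
theorem alt_update_basis {F : Type*} [AddCommGroup F] [Module ℝ F] {n : ℕ}
    (f : F [⋀^Fin n]→ₗ[ℝ] ℝ) (b : Basis (Fin n) ℝ F) (i : Fin n) (x : F) :
    f (Function.update (⇑b) i x) = b.coord i x * f b := by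
  conv_lhs => rw [← b.sum_repr x]
  rw [AlternatingMap.map_update_sum]
  rw [Finset.sum_eq_single i]
  · rw [AlternatingMap.map_update_smul, Function.update_eq_self, smul_eq_mul, Basis.coord_apply]
  · intro j _ hj
    rw [AlternatingMap.map_update_smul, AlternatingMap.map_update_self f (⇑b) (Ne.symm hj), smul_zero]
  · intro h
    exact absurd (Finset.mem_univ i) h

theorem det_continuous {F : Type*} [NormedAddCommGroup F] [NormedSpace ℝ F]
    [FiniteDimensional ℝ F] {n : ℕ} (b₀ : Basis (Fin n) ℝ F) :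
    Continuous (fun v : Fin n → F => b₀.det v) := by
  simp only [Basis.det_apply]
  refine Continuous.matrix_det ?_
  refine continuous_matrix fun i j => ?_
  have h1 : Continuous (fun x : F => b₀.coord i x) := (b₀.coord i).continuous_of_finiteDimensional
  have h2 : Continuous (fun v : Fin n → F => v j) := continuous_apply j
  exact h1.comp h2

theorem exists_auerbach (F : Type*) [NormedAddCommGroup F] [NormedSpace ℝ F]
    [FiniteDimensional ℝ F] :
    ∃ b : Basis (Fin (finrank ℝ F)) ℝ F, (∀ i, ‖b i‖ ≤ 1) ∧ ∀ i x, |b.coord i x| ≤ ‖x‖ := by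
  classical
  have : ProperSpace F := FiniteDimensional.proper_real F
  set n := finrank ℝ F with hn
  let b₀ : Basis (Fin n) ℝ F := finBasis ℝ F
  let K : Set (Fin n → F) := Set.pi Set.univ (fun _ => Metric.closedBall (0 : F) 1)
  have hK : IsCompact K := isCompact_univ_pi (fun _ => isCompact_closedBall 0 1)
  have hmem : ∀ v : Fin n → F, v ∈ K ↔ ∀ i, ‖v i‖ ≤ 1 := by
    intro v
    simp [K, Set.mem_pi]
  have hne : K.Nonempty := ⟨0, by rw [hmem]; intro i; simp⟩
  have hcont : ContinuousOn (fun v : Fin n → F => |b₀.det v|) K :=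
    (continuous_abs.comp (det_continuous b₀)).continuousOn
  obtain ⟨v, hvK, hmax⟩ := hK.exists_isMaxOn hne hcont
  have hv1 : ∀ i, ‖v i‖ ≤ 1 := (hmem v).1 hvK
  have hmax' : ∀ u : Fin n → F, (∀ i, ‖u i‖ ≤ 1) → |b₀.det u| ≤ |b₀.det v| := by
    intro u hu
    exact hmax ((hmem u).2 hu)
  -- the maximum is positive
  have hpos : 0 < |b₀.det v| := by
    have hb0 : ∀ i, b₀ i ≠ 0 := fun i => b₀.ne_zero i
    have h1 := hmax' (fun i => ‖b₀ i‖⁻¹ • b₀ i) (by
      intro i
      rw [norm_smul, norm_inv, norm_norm, inv_mul_cancel₀ (norm_ne_zero_iff.2 (hb0 i))])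
    rw [AlternatingMap.map_smul_univ, Basis.det_self, smul_eq_mul, mul_one] at h1
    have h2 : 0 < ∏ i, ‖b₀ i‖⁻¹ :=
      Finset.prod_pos fun i _ => inv_pos.2 (norm_pos_iff.2 (hb0 i))
    rw [abs_of_pos h2] at h1
    linarith
  have hdet : b₀.det v ≠ 0 := abs_pos.1 hpos
  obtain ⟨hli, hsp⟩ := (b₀.is_basis_iff_det).2 (isUnit_iff_ne_zero.2 hdet)
  let b : Basis (Fin n) ℝ F := Basis.mk hli hsp.ge
  have hbv : (⇑b) = v := Basis.coe_mk hli hsp.ge
  have hunit : ∀ i x, ‖x‖ ≤ 1 → |b.coord i x| ≤ 1 := by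
    intro i x hx
    have h1 := hmax' (Function.update v i x) (by
      intro j
      by_cases hj : j = i
      · subst hj; rw [Function.update_self]; exact hx
      · rw [Function.update_of_ne hj]; exact hv1 j)
    have h2 := alt_update_basis b₀.det b i x
    rw [hbv] at h2
    rw [h2, abs_mul] at h1
    by_contra hcon
    have hlt := not_le.1 hcon
    nlinarith
  refine ⟨b, ?_, ?_⟩
  · intro i
    rw [hbv]
    exact hv1 i
  · intro i x
    by_cases hx : x = 0
    · subst hx
      simp
    · have hxn : 0 < ‖x‖ := norm_pos_iff.2 hx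
      have h1 := hunit i (‖x‖⁻¹ • x) (by
        rw [norm_smul, norm_inv, norm_norm, inv_mul_cancel₀ hxn.ne'])
      rw [map_smul, smul_eq_mul, abs_mul, abs_of_pos (inv_pos.2 hxn)] at h1
      rw [inv_mul_le_iff₀ hxn] at h1
      linarith

end Vale.Agent.P111
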