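import Mathlib

/-!
# P111 (cotype-cotype conjecture): definitions

Random signs are modelled by the uniform measure on the discrete cube `Cube s = Fin s → Bool`.
-/

namespace Vale.Agent.P111

open Finset

/-- the sign `±1` of a Boolean -/
def sg (b : Bool) : ℝ := if b then 1 else -1

/-- the discrete cube -/
abbrev Cube (s : ℕ) := Fin s → Bool

/-- `(E ‖f‖²)^{1/2}` for uniform random signs: the norm of `L_2({-1,1}^s; Y)` -/
noncomputable def L2 {s : ℕ} {Y : Type*} [Norm Y] (f : Cube s → Y) : ℝ :=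
  Real.sqrt ((∑ ε : Cube s, ‖f ε‖ ^ 2) / 2 ^ s)

/-- the Rademacher projection `(Rad f)(ε) = ∑ i, ε_i E_η [η_i f(η)]` -/
noncomputable def Rad {s : ℕ} {Y : Type*} [AddCommGroup Y] [Module ℝ Y] (f : Cube s → Y) :
    Cube s → Y :=
  fun ε => ∑ i, sg (ε i) • ((1 / 2 ^ s : ℝ) • ∑ η : Cube s, sg (η i) • f η)

/-- `C_q(Y) ≤ C`: the cotype `q` inequality with constant `C` -/
def HasCotype (Y : Type*) [NormedAddCommGroup Y] [NormedSpace ℝ Y] (q C : ℝ) : Prop :=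
  ∀ (s : ℕ) (y : Fin s → Y),
    (∑ i, ‖y i‖ ^ q) ^ (1 / q) ≤ C * L2 (fun ε : Cube s => ∑ i, sg (ε i) • y i)

/-- `e` spans a `lam`-isomorphic copy of `ℓ_1^k`:
`(1/lam) ∑ |a_i| ≤ ‖∑ a_i e_i‖ ≤ ∑ |a_i|`. -/
def IsL1Copy {X : Type*} [NormedAddCommGroup X] [NormedSpace ℝ X] {k : ℕ} (e : Fin k → X)
    (lam : ℝ) : Prop :=
  (∀ i, ‖e i‖ ≤ 1) ∧ ∀ a : Fin k → ℝ, ∑ i, |a i| ≤ lam * ‖∑ i, a i • e i‖

/-- `X` contains the `ℓ_1^k` uniformly -/
def ContainsL1Uniformly (X : Type*) [NormedAddCommGroup X] [NormedSpace ℝ X] : Prop :=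
  ∃ lam : ℝ, ∀ k : ℕ, ∃ e : Fin k → X, IsL1Copy e lam

/-- the duality `E ⟨g, F⟩` between `L_2(X^*)` and `L_2(X)` -/
noncomputable def pair {s : ℕ} {X : Type*} [NormedAddCommGroup X] [NormedSpace ℝ X]
    (g : Cube s → StrongDual ℝ X) (F : Cube s → X) : ℝ :=
  (∑ ε : Cube s, g ε (F ε)) / 2 ^ s

/-- the Riesz product kernel `∏ i, (1 + z ε_i η_i)` -/
noncomputable def ker {s : ℕ} (z : ℂ) (ε η : Cube s) : ℂ :=
  ∏ i, (1 + z * (sg (ε i) : ℂ) * (sg (η i) : ℂ))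

end Vale.Agent.P111
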