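import Vale.Agent.P111.Defs

/-!
# P111: duality between `L_2(X)` and `L_2(X^*)` on the cube

PLAN.
* `abs_pair_le`: `|g ε (F ε)| ≤ ‖g ε‖ ‖F ε‖`, Cauchy-Schwarz
  (`Finset.sum_mul_le_sqrt_mul_sqrt` / `Real.sum_mul_le_sqrt_mul_sqrt`).
* `L2_le_of_pair`: choose by Hahn-Banach (`exists_dual_vector''`) `ξ ε` of norm `≤ 1` with
  `ξ ε (F ε) = ‖F ε‖` and test with `g ε = ‖F ε‖ • ξ ε`: `pair g F = (L2 F)^2`, `L2 g ≤ L2 F`.
* `L2_dual_le_of_pair`: for `t < 1` choose `x ε` with `‖x ε‖ ≤ 1` and `t ‖g ε‖ ≤ g ε (x ε)`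
  (from the definition of the operator norm, e.g. `ContinuousLinearMap.exists_lt_apply_of_lt_opNorm` or
  `ContinuousLinearMap.opNorm_le_bound` by contradiction), test with `F ε = ‖g ε‖ • x ε`, get
  `t (L2 g)^2 ≤ c L2 g`, let `t → 1`.
* `pair_Rad`: both sides equal `4^{-s} ∑ ε η, (∑ i, ε_i η_i) g ε (F η)`.
-/

namespace Vale.Agent.P111

open Finset

variable {X : Type*} [NormedAddCommGroup X] [NormedSpace ℝ X]

theorem L2_nonneg {s : ℕ} {Y : Type*} [Norm Y] (f : Cube s → Y) : 0 ≤ L2 f := Real.sqrt_nonneg _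

theorem L2_sq {s : ℕ} {Y : Type*} [SeminormedAddCommGroup Y] (f : Cube s → Y) :
    L2 f ^ 2 = (∑ ε : Cube s, ‖f ε‖ ^ 2) / 2 ^ s := by
  unfold L2
  exact Real.sq_sqrt (by positivity)

theorem L2_mono {s : ℕ} {Y Z : Type*} [SeminormedAddCommGroup Y] [SeminormedAddCommGroup Z]
    (f : Cube s → Y) (h : Cube s → Z) (hfh : ∀ ε, ‖f ε‖ ≤ ‖h ε‖) : L2 f ≤ L2 h := by
  unfold L2
  apply Real.sqrt_le_sqrt
  apply div_le_div_of_nonneg_right _ (by positivity)
  apply Finset.sum_le_sum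
  intro ε _
  exact pow_le_pow_left₀ (norm_nonneg _) (hfh ε) 2

theorem abs_pair_le {s : ℕ} (g : Cube s → StrongDual ℝ X) (F : Cube s → X) :
    |pair g F| ≤ L2 g * L2 F := by
  have h2 : (0:ℝ) < 2 ^ s := by positivity
  have h1 : |∑ ε : Cube s, g ε (F ε)| ≤
      Real.sqrt (∑ ε : Cube s, ‖g ε‖ ^ 2) * Real.sqrt (∑ ε : Cube s, ‖F ε‖ ^ 2) := by
    calc |∑ ε : Cube s, g ε (F ε)| ≤ ∑ ε : Cube s, |g ε (F ε)| := Finset.abs_sum_le_sum_abs _ _
      _ ≤ ∑ ε : Cube s, ‖g ε‖ * ‖F ε‖ := by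
          apply Finset.sum_le_sum
          intro ε _
          have := (g ε).le_opNorm (F ε)
          rwa [Real.norm_eq_abs] at this
      _ ≤ _ := Real.sum_mul_le_sqrt_mul_sqrt _ _ _
  have h3 : L2 g * L2 F =
      Real.sqrt (∑ ε : Cube s, ‖g ε‖ ^ 2) * Real.sqrt (∑ ε : Cube s, ‖F ε‖ ^ 2) / 2 ^ s := by
    unfold L2
    rw [Real.sqrt_div' _ h2.le, Real.sqrt_div' _ h2.le, div_mul_div_comm,
      Real.mul_self_sqrt h2.le]
  rw [h3]
  unfold pair
  rw [abs_div, abs_of_pos h2]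
  exact div_le_div_of_nonneg_right h1 h2.le

theorem L2_le_of_pair {s : ℕ} (F : Cube s → X) (c : ℝ) (hc : 0 ≤ c)
    (h : ∀ g : Cube s → StrongDual ℝ X, |pair g F| ≤ c * L2 g) : L2 F ≤ c := by
  classical
  have hex : ∀ ε, ∃ ξ : StrongDual ℝ X, ‖ξ‖ ≤ 1 ∧ ξ (F ε) = ‖F ε‖ := by
    intro ε
    obtain ⟨ξ, h1, h2⟩ := exists_dual_vector'' ℝ (F ε)
    exact ⟨ξ, h1, by simpa using h2⟩
  choose ξ hξ1 hξ2 using hex
  let g : Cube s → StrongDual ℝ X := fun ε => ‖F ε‖ • ξ ε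
  have hp : pair g F = L2 F ^ 2 := by
    rw [L2_sq]
    unfold pair
    congr 1
    apply Finset.sum_congr rfl
    intro ε _
    simp only [g, _root_.smul_apply, hξ2, smul_eq_mul]
    ring
  have hg : L2 g ≤ L2 F := by
    apply L2_mono
    intro ε
    simp only [g, norm_smul, norm_norm]
    calc ‖F ε‖ * ‖ξ ε‖ ≤ ‖F ε‖ * 1 := by gcongr; exact hξ1 ε
      _ = ‖F ε‖ := mul_one _
  have h1 := h g
  rw [hp, abs_of_nonneg (by positivity)] at h1
  have h2 : L2 F ^ 2 ≤ c * L2 F := h1.trans (by gcongr)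
  by_contra hcon
  have hlt : c < L2 F := not_le.mp hcon
  have hpos : 0 < L2 F := lt_of_le_of_lt hc hlt
  nlinarith

theorem L2_dual_le_of_pair {s : ℕ} (g : Cube s → StrongDual ℝ X) (c : ℝ) (hc : 0 ≤ c)
    (h : ∀ F : Cube s → X, |pair g F| ≤ c * L2 F) : L2 g ≤ c := by
  classical
  have key : ∀ t : ℝ, 0 ≤ t → t < 1 → t * L2 g ^ 2 ≤ c * L2 g := by
    intro t ht0 ht1
    have hex : ∀ ε, ∃ x : X, ‖x‖ ≤ 1 ∧ t * ‖g ε‖ ≤ g ε x := by
      intro ε
      by_cases h0 : ‖g ε‖ = 0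
      · exact ⟨0, by simp, by simp [h0]⟩
      · have hpos : 0 < ‖g ε‖ := lt_of_le_of_ne (norm_nonneg _) (Ne.symm h0)
        have hlt : t * ‖g ε‖ < ‖g ε‖ := by nlinarith
        obtain ⟨x, hx1, hx2⟩ := (g ε).exists_lt_apply_of_lt_opNorm hlt
        rw [Real.norm_eq_abs] at hx2
        rcases le_total 0 (g ε x) with hs | hs
        · exact ⟨x, hx1.le, by rw [abs_of_nonneg hs] at hx2; exact hx2.le⟩
        · refine ⟨-x, by rw [norm_neg]; exact hx1.le, ?_⟩
          rw [abs_of_nonpos hs] at hx2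
          rw [map_neg]
          exact hx2.le
    choose x hx1 hx2 using hex
    let F : Cube s → X := fun ε => ‖g ε‖ • x ε
    have hp : t * L2 g ^ 2 ≤ pair g F := by
      rw [L2_sq]
      unfold pair
      rw [← mul_div_assoc]
      apply div_le_div_of_nonneg_right _ (by positivity)
      rw [Finset.mul_sum]
      apply Finset.sum_le_sum
      intro ε _
      simp only [F, map_smul, smul_eq_mul]
      have := hx2 ε
      have hn := norm_nonneg (g ε)
      nlinarith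
    have hF : L2 F ≤ L2 g := by
      apply L2_mono
      intro ε
      simp only [F, norm_smul, norm_norm]
      calc ‖g ε‖ * ‖x ε‖ ≤ ‖g ε‖ * 1 := by gcongr; exact hx1 ε
        _ = ‖g ε‖ := mul_one _
    calc t * L2 g ^ 2 ≤ pair g F := hp
      _ ≤ |pair g F| := le_abs_self _
      _ ≤ c * L2 F := h F
      _ ≤ c * L2 g := by gcongr
  by_contra hcon
  have hlt : c < L2 g := not_le.mp hcon
  have hpos : 0 < L2 g := lt_of_le_of_lt hc hlt
  have ht1 : (c / L2 g + 1) / 2 < 1 := by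
    have : c / L2 g < 1 := (div_lt_one hpos).mpr hlt
    linarith
  have ht0 : 0 ≤ (c / L2 g + 1) / 2 := by positivity
  have h1 := key _ ht0 ht1
  have h2 : (c / L2 g + 1) / 2 * L2 g ^ 2 = (c + L2 g) / 2 * L2 g := by
    field_simp
  rw [h2] at h1
  have h3 : (c + L2 g) / 2 ≤ c := le_of_mul_le_mul_right h1 hpos
  linarith

/-- explicit double sum for the Rademacher projection -/
theorem pair_Rad_eq {s : ℕ} (g : Cube s → StrongDual ℝ X) (F : Cube s → X) :
    pair g (Rad F) =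
      (∑ ε : Cube s, ∑ η : Cube s, (∑ i, sg (ε i) * sg (η i)) * g ε (F η)) / 4 ^ s := by
  unfold pair Rad
  have h4 : (4:ℝ) ^ s = 2 ^ s * 2 ^ s := by
    rw [← mul_pow]; norm_num
  rw [h4, div_eq_div_iff (by positivity) (by positivity)]
  have h2 : (2:ℝ) ^ s ≠ 0 := by positivity
  rw [Finset.sum_mul, Finset.sum_mul]
  apply Finset.sum_congr rfl
  intro ε _
  simp only [map_sum, map_smul, smul_eq_mul]
  rw [Finset.sum_mul, Finset.sum_mul]
  simp only [Finset.sum_mul, Finset.mul_sum]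
  rw [Finset.sum_comm]
  apply Finset.sum_congr rfl
  intro η _
  apply Finset.sum_congr rfl
  intro i _
  field_simp

theorem pair_Rad' {s : ℕ} (g : Cube s → StrongDual ℝ X) (F : Cube s → X) :
    pair (Rad g) F =
      (∑ ε : Cube s, ∑ η : Cube s, (∑ i, sg (ε i) * sg (η i)) * g ε (F η)) / 4 ^ s := by
  unfold pair Rad
  have h4 : (4:ℝ) ^ s = 2 ^ s * 2 ^ s := by
    rw [← mul_pow]; norm_num
  rw [h4, div_eq_div_iff (by positivity) (by positivity)]
  have h2 : (2:ℝ) ^ s ≠ 0 := by positivity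
  rw [Finset.sum_comm]
  rw [Finset.sum_mul, Finset.sum_mul]
  apply Finset.sum_congr rfl
  intro ε _
  simp only [_root_.sum_apply, _root_.smul_apply, smul_eq_mul]
  rw [Finset.sum_mul, Finset.sum_mul]
  simp only [Finset.sum_mul, Finset.mul_sum]
  rw [Finset.sum_comm]
  apply Finset.sum_congr rfl
  intro η _
  apply Finset.sum_congr rfl
  intro i _
  field_simp

theorem pair_Rad {s : ℕ} (g : Cube s → StrongDual ℝ X) (F : Cube s → X) :
    pair g (Rad F) = pair (Rad g) F := by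
  rw [pair_Rad_eq, pair_Rad']

end Vale.Agent.P111
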