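import Vale.Agent.P111.Auerbach

/-!
# P111: factorisation of finite rank operators through `ℓ_2^n`

PLAN.  `F = range S`, `b` an Auerbach basis of `F` (`exists_auerbach`), `A x = (coord_i (S x))_i`,
`B a = ∑ a_i b_i`; `‖A x‖₂ ≤ √n ‖S‖ ‖x‖`, `‖B a‖ ≤ ∑ |a_i| ≤ √n ‖a‖₂`
(`LinearMap.mkContinuous`, `ContinuousLinearMap.opNorm_le_bound`, `EuclideanSpace.norm_eq`).
-/

namespace Vale.Agent.P111

open Finset Module

/-- abstract version: a linear map `R` bounded by `c` into a normed space `F` with an Auerbach basis,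
followed by a contractive inclusion `J`. -/
theorem exists_factor_aux {X F : Type*} [NormedAddCommGroup X] [NormedSpace ℝ X]
    [NormedAddCommGroup F] [NormedSpace ℝ F] (n : ℕ) (b : Basis (Fin n) ℝ F)
    (hb1 : ∀ i, ‖b i‖ ≤ 1) (hb2 : ∀ i x, |b.coord i x| ≤ ‖x‖)
    (R : X →ₗ[ℝ] F) (J : F →ₗ[ℝ] X) (c : ℝ) (hc : 0 ≤ c) (hR : ∀ x, ‖R x‖ ≤ c * ‖x‖)
    (hJ : ∀ y, ‖J y‖ ≤ ‖y‖) :
    ∃ (A : X →L[ℝ] EuclideanSpace ℝ (Fin n))
      (B : EuclideanSpace ℝ (Fin n) →L[ℝ] X),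
      (∀ x, B (A x) = J (R x)) ∧ ‖A‖ * ‖B‖ ≤ (n : ℝ) * c := by
  classical
  have hsn : 0 ≤ Real.sqrt (n : ℝ) := Real.sqrt_nonneg _
  let Al : X →ₗ[ℝ] EuclideanSpace ℝ (Fin n) :=
    (WithLp.linearEquiv 2 ℝ (Fin n → ℝ)).symm.toLinearMap ∘ₗ b.equivFun.toLinearMap ∘ₗ R
  have hAl : ∀ x i, Al x i = b.coord i (R x) := by
    intro x i
    simp [Al]
  have hAb : ∀ x, ‖Al x‖ ≤ (Real.sqrt (n : ℝ) * c) * ‖x‖ := by
    intro x
    rw [EuclideanSpace.norm_eq]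
    have h1 : ∑ i, ‖Al x i‖ ^ 2 ≤ (n : ℝ) * (c * ‖x‖) ^ 2 := by
      have h2 : ∀ i ∈ (Finset.univ : Finset (Fin n)), ‖Al x i‖ ^ 2 ≤ (c * ‖x‖) ^ 2 := by
        intro i _
        rw [hAl, Real.norm_eq_abs]
        have h3 : |b.coord i (R x)| ≤ c * ‖x‖ := le_trans (hb2 i (R x)) (hR x)
        exact pow_le_pow_left₀ (abs_nonneg _) h3 2
      have h4 := Finset.sum_le_sum h2
      simpa using h4
    have h5 : 0 ≤ c * ‖x‖ := mul_nonneg hc (norm_nonneg x)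
    calc Real.sqrt (∑ i, ‖Al x i‖ ^ 2) ≤ Real.sqrt ((n : ℝ) * (c * ‖x‖) ^ 2) := Real.sqrt_le_sqrt h1
      _ = Real.sqrt (n : ℝ) * (c * ‖x‖) := by
          rw [Real.sqrt_mul (Nat.cast_nonneg n), Real.sqrt_sq h5]
      _ = (Real.sqrt (n : ℝ) * c) * ‖x‖ := by ring
  let A : X →L[ℝ] EuclideanSpace ℝ (Fin n) := Al.mkContinuous (Real.sqrt (n : ℝ) * c) hAb
  have hA : ‖A‖ ≤ Real.sqrt (n : ℝ) * c :=
    LinearMap.mkContinuous_norm_le _ (mul_nonneg hsn hc) _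
  let Bl : EuclideanSpace ℝ (Fin n) →ₗ[ℝ] X :=
    J ∘ₗ b.equivFun.symm.toLinearMap ∘ₗ (WithLp.linearEquiv 2 ℝ (Fin n → ℝ)).toLinearMap
  have hBl : ∀ a : EuclideanSpace ℝ (Fin n), Bl a = ∑ i, a i • J (b i) := by
    intro a
    simp [Bl, Basis.equivFun_symm_apply]
  have hBb : ∀ a, ‖Bl a‖ ≤ Real.sqrt (n : ℝ) * ‖a‖ := by
    intro a
    rw [hBl]
    have h1 : ‖∑ i, a i • J (b i)‖ ≤ ∑ i, |a i| := by
      refine le_trans (norm_sum_le _ _) (Finset.sum_le_sum fun i _ => ?_)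
      rw [norm_smul, Real.norm_eq_abs]
      have h2 : ‖J (b i)‖ ≤ 1 := le_trans (hJ _) (hb1 i)
      nlinarith [abs_nonneg (a i)]
    have h3 : (∑ i, |a i|) ^ 2 ≤ (n : ℝ) * ∑ i, |a i| ^ 2 := by
      have := sq_sum_le_card_mul_sum_sq (s := (Finset.univ : Finset (Fin n))) (f := fun i => |a i|)
      simpa using this
    have h4 : ∑ i, |a i| ≤ Real.sqrt ((n : ℝ) * ∑ i, |a i| ^ 2) := Real.le_sqrt_of_sq_le h3
    have h5 : Real.sqrt ((n : ℝ) * ∑ i, |a i| ^ 2) = Real.sqrt (n : ℝ) * ‖a‖ := by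
      rw [Real.sqrt_mul (Nat.cast_nonneg n), EuclideanSpace.norm_eq]
      simp only [Real.norm_eq_abs]
    linarith
  let B : EuclideanSpace ℝ (Fin n) →L[ℝ] X := Bl.mkContinuous (Real.sqrt (n : ℝ)) hBb
  have hB : ‖B‖ ≤ Real.sqrt (n : ℝ) := LinearMap.mkContinuous_norm_le _ hsn _
  refine ⟨A, B, ?_, ?_⟩
  · intro x
    change Bl (Al x) = J (R x)
    simp [Bl, Al]
  · calc ‖A‖ * ‖B‖ ≤ (Real.sqrt (n : ℝ) * c) * Real.sqrt (n : ℝ) :=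
        mul_le_mul hA hB (norm_nonneg _) (mul_nonneg hsn hc)
      _ = (Real.sqrt (n : ℝ) * Real.sqrt (n : ℝ)) * c := by ring
      _ = (n : ℝ) * c := by rw [Real.mul_self_sqrt (Nat.cast_nonneg n)]

theorem exists_factor {X : Type*} [NormedAddCommGroup X] [NormedSpace ℝ X] (S : X →L[ℝ] X)
    (hS : FiniteDimensional ℝ (LinearMap.range (S : X →ₗ[ℝ] X))) :
    ∃ (A : X →L[ℝ] EuclideanSpace ℝ (Fin (finrank ℝ (LinearMap.range (S : X →ₗ[ℝ] X)))))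
      (B : EuclideanSpace ℝ (Fin (finrank ℝ (LinearMap.range (S : X →ₗ[ℝ] X)))) →L[ℝ] X),
      B.comp A = S ∧
        ‖A‖ * ‖B‖ ≤ (finrank ℝ (LinearMap.range (S : X →ₗ[ℝ] X)) : ℝ) * ‖S‖ := by
  have := hS
  obtain ⟨b, hb1, hb2⟩ := exists_auerbach (LinearMap.range (S : X →ₗ[ℝ] X))
  obtain ⟨A, B, h1, h2⟩ := exists_factor_aux _ b hb1 hb2 (S : X →ₗ[ℝ] X).rangeRestrict
    (LinearMap.range (S : X →ₗ[ℝ] X)).subtype ‖S‖ (norm_nonneg S)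
    (fun x => S.le_opNorm x) (fun y => le_of_eq rfl)
  refine ⟨A, B, ?_, h2⟩
  ext x
  exact h1 x

end Vale.Agent.P111
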