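import Vale.Agent.P111.Duality

/-!
# P111: a copy of `ℓ_1^k` and cotype of the dual force a large Rademacher projection

PLAN.  For a sign vector `ε` the functional `∑ a_i e_i ↦ ∑ ε_i a_i` on `span e` has norm `≤ lam`
(`IsL1Copy`; it is well defined because `e` is linearly independent, again by `IsL1Copy`).
Hahn-Banach (`exists_extension_norm_eq`) gives `ξ ε ∈ X^*`, `‖ξ ε‖ ≤ lam`, `ξ ε (e i) = sg (ε i)`
(this is `exists_lifts`).  Put `g ε = (ξ ε).comp T` and `η i = 2^{-k} ∑ ε, sg (ε i) • g ε`, so that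
`Rad g = fun ε => ∑ i, sg (ε i) • η i`.
* `η i (e i) = 2^{-k} ∑ ε, sg (ε i) ξ ε (T e_i) ≥ 1 - lam δ`, hence `‖η i‖ ≥ 1 - lam δ`.
* cotype: `(1 - lam δ) k^{1/r} ≤ (∑ ‖η i‖^r)^{1/r} ≤ C L2 (Rad g)`.
* `L2 (Rad g) ≤ lam K` by `L2_dual_le_of_pair`: `pair (Rad g) F = pair g (Rad F)`
  `= pair ξ (T ∘ Rad F) = pair ξ (Rad (T ∘ F))`, `|..| ≤ L2 ξ L2 (Rad (T ∘ F)) ≤ lam K L2 F`.
-/

namespace Vale.Agent.P111

open Finset

variable {X : Type*} [NormedAddCommGroup X] [NormedSpace ℝ X]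

theorem abs_sg (b : Bool) : |sg b| = 1 := by
  cases b <;> simp [sg]

theorem sg_mul_self (b : Bool) : sg b * sg b = 1 := by
  cases b <;> simp [sg]

theorem card_cube (s : ℕ) : (Fintype.card (Cube s) : ℝ) = 2 ^ s := by
  simp [Cube]

/-- if all values have norm at most `c`, so has the `L2` norm -/
theorem L2_le_of_forall {s : ℕ} {Y : Type*} [NormedAddCommGroup Y] (f : Cube s → Y) (c : ℝ)
    (hc : 0 ≤ c) (h : ∀ ε, ‖f ε‖ ≤ c) : L2 f ≤ c := by
  unfold L2
  have h2 : (0 : ℝ) < 2 ^ s := by positivity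
  have h1 : (∑ ε : Cube s, ‖f ε‖ ^ 2) ≤ 2 ^ s * c ^ 2 := by
    calc (∑ ε : Cube s, ‖f ε‖ ^ 2) ≤ ∑ _ε : Cube s, c ^ 2 :=
          Finset.sum_le_sum (fun ε _ => pow_le_pow_left₀ (norm_nonneg _) (h ε) 2)
      _ = 2 ^ s * c ^ 2 := by
          rw [Finset.sum_const, Finset.card_univ, nsmul_eq_mul, card_cube]
  have h3 : (∑ ε : Cube s, ‖f ε‖ ^ 2) / 2 ^ s ≤ c ^ 2 := by
    rw [div_le_iff₀ h2]
    linarith
  calc Real.sqrt ((∑ ε : Cube s, ‖f ε‖ ^ 2) / 2 ^ s) ≤ Real.sqrt (c ^ 2) := Real.sqrt_le_sqrt h3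
    _ = c := Real.sqrt_sq hc

theorem exists_lifts {k : ℕ} (e : Fin k → X) (lam : ℝ) (hlam : 0 ≤ lam) (he : IsL1Copy e lam)
    (ε : Cube k) :
    ∃ ξ : StrongDual ℝ X, ‖ξ‖ ≤ lam ∧ ∀ i, ξ (e i) = sg (ε i) := by
  classical
  have hli : LinearIndependent ℝ e := by
    rw [Fintype.linearIndependent_iff]
    intro a ha i
    have h := he.2 a
    rw [ha, norm_zero, mul_zero] at h
    have h0 : ∀ j ∈ (Finset.univ : Finset (Fin k)), 0 ≤ |a j| := fun j _ => abs_nonneg _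
    have h1 : ∑ j, |a j| = 0 := le_antisymm h (Finset.sum_nonneg h0)
    have h2 := (Finset.sum_eq_zero_iff_of_nonneg h0).1 h1 i (Finset.mem_univ i)
    exact abs_eq_zero.1 h2
  let b := Module.Basis.span hli
  let f0 : Submodule.span ℝ (Set.range e) →ₗ[ℝ] ℝ := b.constr ℝ (fun i => sg (ε i))
  have hbe : ∀ i, ((b i : Submodule.span ℝ (Set.range e)) : X) = e i := fun i => by
    have h := Module.Basis.span_apply hli i
    exact congrArg Subtype.val h
  have hb : ∀ x : Submodule.span ℝ (Set.range e), ‖f0 x‖ ≤ lam * ‖x‖ := by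
    intro x
    have hx : (x : X) = ∑ i, b.repr x i • e i := by
      have h1 := b.sum_repr x
      have h2 := congrArg (fun y : Submodule.span ℝ (Set.range e) => (y : X)) h1
      simp only [Submodule.coe_sum, Submodule.coe_smul, hbe] at h2
      exact h2.symm
    have hf : f0 x = ∑ i, b.repr x i * sg (ε i) := by
      simp only [f0, Module.Basis.constr_apply_fintype, Module.Basis.equivFun_apply, smul_eq_mul]
    have h3 := he.2 (fun i => b.repr x i)
    rw [← hx] at h3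
    calc ‖f0 x‖ = |∑ i, b.repr x i * sg (ε i)| := by rw [hf, Real.norm_eq_abs]
      _ ≤ ∑ i, |b.repr x i * sg (ε i)| := Finset.abs_sum_le_sum_abs _ _
      _ = ∑ i, |b.repr x i| := by
          apply Finset.sum_congr rfl
          intro i _
          rw [abs_mul, abs_sg, mul_one]
      _ ≤ lam * ‖(x : X)‖ := h3
      _ = lam * ‖x‖ := by rw [Submodule.coe_norm]
  obtain ⟨g, hg1, hg2⟩ := exists_extension_norm_eq (Submodule.span ℝ (Set.range e))
    (f0.mkContinuous lam hb)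
  refine ⟨g, ?_, ?_⟩
  · rw [hg2]
    exact LinearMap.mkContinuous_norm_le _ hlam _
  · intro i
    have h1 := hg1 (b i)
    rw [hbe i] at h1
    rw [h1, LinearMap.mkContinuous_apply]
    simp only [f0, Module.Basis.constr_basis]

/-- test the cotype inequality on one nonzero vector -/
theorem one_le_of_hasCotype {Y : Type*} [NormedAddCommGroup Y] [NormedSpace ℝ Y] {r C : ℝ}
    (hr : 1 ≤ r) (hC : HasCotype Y r C) (y : Y) (hy : y ≠ 0) : 1 ≤ C := by
  have h := hC 1 (fun _ => y)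
  have hy0 : 0 < ‖y‖ := norm_pos_iff.2 hy
  have hr0 : r ≠ 0 := by linarith
  have h1 : (∑ _i : Fin 1, ‖y‖ ^ r) ^ (1 / r) = ‖y‖ := by
    rw [Fin.sum_univ_one, ← Real.rpow_mul hy0.le, mul_one_div_cancel hr0, Real.rpow_one]
  have h2 : L2 (fun ε : Cube 1 => ∑ i, sg (ε i) • y) ≤ ‖y‖ := by
    apply L2_le_of_forall _ _ hy0.le
    intro ε
    rw [Fin.sum_univ_one, norm_smul, Real.norm_eq_abs, abs_sg, one_mul]
  rw [h1] at h
  by_contra hcon
  rw [not_le] at hcon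
  by_cases hC0 : 0 ≤ C
  · have h3 : C * L2 (fun ε : Cube 1 => ∑ i, sg (ε i) • y) ≤ C * ‖y‖ :=
      mul_le_mul_of_nonneg_left h2 hC0
    nlinarith
  · rw [not_le] at hC0
    have h3 : C * L2 (fun ε : Cube 1 => ∑ i, sg (ε i) • y) ≤ 0 :=
      mul_nonpos_of_nonpos_of_nonneg hC0.le (L2_nonneg _)
    linarith

theorem lower_bound {r C lam K δ : ℝ} (hr : 1 ≤ r) (hC0 : 0 ≤ C) (hK0 : 0 ≤ K) (hlam : 0 ≤ lam)
    (hδ : lam * δ ≤ 1) (hC : HasCotype (StrongDual ℝ X) r C) {k : ℕ} (e : Fin k → X)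
    (he : IsL1Copy e lam) (T : X →L[ℝ] X) (hT : ∀ i, ‖T (e i) - e i‖ ≤ δ)
    (hK : ∀ f : Cube k → X, L2 (Rad (fun ε => T (f ε))) ≤ K * L2 f) :
    (1 - lam * δ) * (k : ℝ) ^ (1 / r) ≤ C * lam * K := by
  classical
  choose ξ hξ1 hξ2 using fun ε : Cube k => exists_lifts e lam hlam he ε
  have hr0 : 0 < r := by linarith
  set g : Cube k → StrongDual ℝ X := fun ε => (ξ ε).comp T with hg
  set y : Fin k → StrongDual ℝ X :=
    fun i => (1 / 2 ^ k : ℝ) • ∑ η : Cube k, sg (η i) • g η with hy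
  have hRad : Rad g = fun ε => ∑ i, sg (ε i) • y i := rfl
  have h2k : (0 : ℝ) < 2 ^ k := by positivity
  -- step 1
  have hstep1 : ∀ i, 1 - lam * δ ≤ ‖y i‖ := by
    intro i
    have hterm : ∀ η : Cube k, 1 - lam * δ ≤ sg (η i) * g η (e i) := by
      intro η
      have e1 : g η (e i) = sg (η i) + ξ η (T (e i) - e i) := by
        simp only [hg, ContinuousLinearMap.comp_apply, map_sub, hξ2]
        ring
      have e2 : |ξ η (T (e i) - e i)| ≤ lam * δ := by
        calc |ξ η (T (e i) - e i)| = ‖ξ η (T (e i) - e i)‖ := (Real.norm_eq_abs _).symm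
          _ ≤ ‖ξ η‖ * ‖T (e i) - e i‖ := (ξ η).le_opNorm _
          _ ≤ lam * δ := mul_le_mul (hξ1 η) (hT i) (norm_nonneg _) hlam
      have e3 : |sg (η i) * ξ η (T (e i) - e i)| ≤ lam * δ := by
        rw [abs_mul, abs_sg, one_mul]
        exact e2
      have e4 := (abs_le.1 e3).1
      rw [e1, mul_add, sg_mul_self]
      linarith
    have hval : y i (e i) = (∑ η : Cube k, sg (η i) * g η (e i)) / 2 ^ k := by
      simp only [hy, smul_apply, _root_.sum_apply, smul_eq_mul]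
      ring
    have hsum : 2 ^ k * (1 - lam * δ) ≤ ∑ η : Cube k, sg (η i) * g η (e i) := by
      calc 2 ^ k * (1 - lam * δ) = ∑ _η : Cube k, (1 - lam * δ) := by
            rw [Finset.sum_const, Finset.card_univ, nsmul_eq_mul, card_cube]
        _ ≤ _ := Finset.sum_le_sum (fun η _ => hterm η)
    have h1 : 1 - lam * δ ≤ y i (e i) := by
      rw [hval, le_div_iff₀ h2k]
      linarith
    have h2 : y i (e i) ≤ ‖y i‖ := by
      calc y i (e i) ≤ ‖y i (e i)‖ := Real.le_norm_self _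
        _ ≤ ‖y i‖ * ‖e i‖ := (y i).le_opNorm _
        _ ≤ ‖y i‖ * 1 := mul_le_mul_of_nonneg_left (he.1 i) (norm_nonneg _)
        _ = ‖y i‖ := mul_one _
    linarith
  -- step 2
  have hm0 : 0 ≤ 1 - lam * δ := by linarith
  have hstep2 : (1 - lam * δ) * (k : ℝ) ^ (1 / r) ≤ (∑ i, ‖y i‖ ^ r) ^ (1 / r) := by
    have h1 : (k : ℝ) * (1 - lam * δ) ^ r ≤ ∑ i, ‖y i‖ ^ r := by
      calc (k : ℝ) * (1 - lam * δ) ^ r = ∑ _i : Fin k, (1 - lam * δ) ^ r := by
            rw [Finset.sum_const, Finset.card_univ, nsmul_eq_mul, Fintype.card_fin]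
        _ ≤ _ := Finset.sum_le_sum (fun i _ => Real.rpow_le_rpow hm0 (hstep1 i) hr0.le)
    have h2 : ((k : ℝ) * (1 - lam * δ) ^ r) ^ (1 / r) = (1 - lam * δ) * (k : ℝ) ^ (1 / r) := by
      rw [Real.mul_rpow (Nat.cast_nonneg k) (Real.rpow_nonneg hm0 r), ← Real.rpow_mul hm0,
        mul_one_div_cancel hr0.ne', Real.rpow_one, mul_comm]
    rw [← h2]
    exact Real.rpow_le_rpow (mul_nonneg (Nat.cast_nonneg k) (Real.rpow_nonneg hm0 r)) h1
      (by positivity)
  -- step 3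
  have hξL2 : L2 ξ ≤ lam := L2_le_of_forall ξ lam hlam hξ1
  have hstep3 : L2 (Rad g) ≤ lam * K := by
    apply L2_dual_le_of_pair _ _ (mul_nonneg hlam hK0)
    intro F
    have e1 : pair (Rad g) F = pair ξ (Rad (fun ε => T (F ε))) := by
      rw [← pair_Rad]
      unfold pair
      congr 1
      apply Finset.sum_congr rfl
      intro ε _
      simp only [hg, ContinuousLinearMap.comp_apply, Rad, map_sum, map_smul]
    rw [e1]
    calc |pair ξ (Rad (fun ε => T (F ε)))| ≤ L2 ξ * L2 (Rad (fun ε => T (F ε))) := abs_pair_le _ _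
      _ ≤ lam * (K * L2 F) := mul_le_mul hξL2 (hK F) (L2_nonneg _) hlam
      _ = lam * K * L2 F := by ring
  have hcot := hC k y
  rw [← hRad] at hcot
  calc (1 - lam * δ) * (k : ℝ) ^ (1 / r) ≤ (∑ i, ‖y i‖ ^ r) ^ (1 / r) := hstep2
    _ ≤ C * L2 (Rad g) := hcot
    _ ≤ C * (lam * K) := mul_le_mul_of_nonneg_left hstep3 hC0
    _ = C * lam * K := by ring

end Vale.Agent.P111
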