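import Vale.Agent.P111.LogBound
import Vale.Agent.P111.Factor
import Vale.Agent.P111.Lower

/-!
# P111 (cotype-cotype conjecture): approximating operators on copies of `ℓ_1^k` have huge rank
-/

namespace Vale.Agent.P111.Final

open Vale.Agent.P111 Module Filter

/-- bounded approximation with constant `mu` in which any `k` points can be approximated by operators
of rank at most `m k` (the uniform approximation property with uniformity function `m`) -/
def HasRankBAP (X : Type*) [NormedAddCommGroup X] [NormedSpace ℝ X] (mu : ℝ) (m : ℕ → ℕ) : Prop :=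
  ∀ (k : ℕ) (x : Fin k → X) (δ : ℝ), 0 < δ →
    ∃ S : X →L[ℝ] X, FiniteDimensional ℝ (LinearMap.range (S : X →ₗ[ℝ] X)) ∧
      finrank ℝ (LinearMap.range (S : X →ₗ[ℝ] X)) ≤ m k ∧ ‖S‖ ≤ mu ∧ ∀ i, ‖S (x i) - x i‖ ≤ δ

theorem main {X : Type*} [NormedAddCommGroup X] [NormedSpace ℝ X] (r C lam : ℝ) (k : ℕ)
    (e : Fin k → X) (S : X →L[ℝ] X) (hr : 2 ≤ r) (hC : HasCotype (StrongDual ℝ X) r C)
    (he : IsL1Copy e lam) (hk : 1 ≤ k)
    (hS : FiniteDimensional ℝ (LinearMap.range (S : X →ₗ[ℝ] X)))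
    (hSe : ∀ i, ‖S (e i) - e i‖ ≤ 1 / (2 * lam)) :
    (k : ℝ) ^ (1 / r) ≤ 10 * C * lam * ‖S‖ *
      (1 + Real.log (finrank ℝ (LinearMap.range (S : X →ₗ[ℝ] X)))) := by
  classical
  set n := finrank ℝ (LinearMap.range (S : X →ₗ[ℝ] X)) with hn
  have i0 : Fin k := ⟨0, hk⟩
  -- `lam ≥ 1`
  have h1 : 1 ≤ lam * ‖e i0‖ := by
    have h := he.2 (Pi.single i0 1)
    have hs : ∑ i, |(Pi.single i0 (1 : ℝ) : Fin k → ℝ) i| = 1 := by
      rw [Finset.sum_eq_single i0]
      · simp
      · intro j _ hj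
        simp [Pi.single_eq_of_ne hj]
      · simp
    have hs2 : ∑ i, (Pi.single i0 (1 : ℝ) : Fin k → ℝ) i • e i = e i0 := by
      rw [Finset.sum_eq_single i0]
      · simp
      · intro j _ hj
        simp [Pi.single_eq_of_ne hj]
      · simp
    rwa [hs, hs2] at h
  have hlam : 1 ≤ lam := by
    have h2 := he.1 i0
    have h3 : 0 ≤ ‖e i0‖ := norm_nonneg _
    by_contra hcon
    push Not at hcon
    rcases le_or_gt 0 lam with h4 | h4
    · nlinarith
    · nlinarith
  have hlam0 : 0 < lam := by linarith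
  have he0 : e i0 ≠ 0 := by
    intro h
    rw [h, norm_zero, mul_zero] at h1
    linarith
  -- `S ≠ 0`
  have hSne : S ≠ 0 := by
    intro h
    have h2 := hSe i0
    rw [h] at h2
    simp only [zero_apply, zero_sub, norm_neg] at h2
    have h3 : lam * ‖e i0‖ ≤ lam * (1 / (2 * lam)) := mul_le_mul_of_nonneg_left h2 hlam0.le
    have h4 : lam * (1 / (2 * lam)) = 1 / 2 := by field_simp
    linarith
  have hSpos : 0 < ‖S‖ := norm_pos_iff.2 hSne
  have hnpos : 1 ≤ n := by
    by_contra hcon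
    have h0 : n = 0 := by omega
    apply hSne
    have hbot : LinearMap.range (S : X →ₗ[ℝ] X) = ⊥ := by
      rw [hn] at h0
      exact Submodule.finrank_eq_zero.1 h0
    ext x
    have hx : (S : X →ₗ[ℝ] X) x ∈ LinearMap.range (S : X →ₗ[ℝ] X) := LinearMap.mem_range_self _ x
    rw [hbot, Submodule.mem_bot] at hx
    simpa using hx
  have hn1 : (1 : ℝ) ≤ (n : ℝ) := by exact_mod_cast hnpos
  -- `C ≥ 1`
  obtain ⟨ξ0, _, hξ0⟩ := exists_dual_vector ℝ (e i0) (norm_ne_zero_iff.2 he0)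
  have hξne : ξ0 ≠ 0 := by
    intro h
    rw [h] at hξ0
    simp only [zero_apply] at hξ0
    have : ‖e i0‖ = 0 := by
      have := hξ0.symm
      simpa using this
    exact he0 (norm_eq_zero.1 this)
  have hC1 : 1 ≤ C := one_le_of_hasCotype (by linarith) hC ξ0 hξne
  obtain ⟨A, B, hAB, hnorm⟩ := exists_factor S hS
  have hK : ∀ f : Cube k → X, L2 (Rad (fun ε => S (f ε))) ≤
      (5 * ‖S‖ * (1 + Real.log ((n : ℝ) * ‖S‖ / ‖S‖))) * L2 f := by
    intro f
    have h := log_bound A B ‖S‖ ((n : ℝ) * ‖S‖) hSpos (by nlinarith) (by rw [hAB]) hnorm f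
    have h2 : (fun ε => B (A (f ε))) = fun ε => S (f ε) := by
      funext ε
      have h3 := congrArg (fun U : X →L[ℝ] X => U (f ε)) hAB
      simpa using h3
    rwa [h2] at h
  have hdiv : (n : ℝ) * ‖S‖ / ‖S‖ = n := by field_simp
  rw [hdiv] at hK
  have hlog : 0 ≤ Real.log (n : ℝ) := Real.log_nonneg hn1
  have hlow := lower_bound (r := r) (C := C) (lam := lam)
    (K := 5 * ‖S‖ * (1 + Real.log (n : ℝ))) (δ := 1 / (2 * lam)) (by linarith) (by linarith)
    (by positivity) hlam0.le (by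
      have : lam * (1 / (2 * lam)) = 1 / 2 := by field_simp
      rw [this]; norm_num) hC e he S hSe hK
  have h4 : lam * (1 / (2 * lam)) = 1 / 2 := by field_simp
  rw [h4] at hlow
  nlinarith

/-- growth of the Rademacher projections: if `X^*` has cotype `r` and `X` contains a `lam`-copy of
`ℓ_1^k`, then the norm of `Rad_k` on `L_2(X)` is at least `k^{1/r} / (C lam)`. -/
theorem gap {X : Type*} [NormedAddCommGroup X] [NormedSpace ℝ X] (r C lam K : ℝ) (k : ℕ)
    (e : Fin k → X) (hr : 2 ≤ r) (hC : HasCotype (StrongDual ℝ X) r C)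
    (he : IsL1Copy e lam) (hk : 1 ≤ k)
    (hK : ∀ f : Cube k → X, L2 (Rad f) ≤ K * L2 f) :
    (k : ℝ) ^ (1 / r) ≤ C * lam * K := by
  classical
  have i0 : Fin k := ⟨0, hk⟩
  have h1 : 1 ≤ lam * ‖e i0‖ := by
    have h := he.2 (Pi.single i0 1)
    have hs : ∑ i, |(Pi.single i0 (1 : ℝ) : Fin k → ℝ) i| = 1 := by
      rw [Finset.sum_eq_single i0]
      · simp
      · intro j _ hj
        simp [Pi.single_eq_of_ne hj]
      · simp
    have hs2 : ∑ i, (Pi.single i0 (1 : ℝ) : Fin k → ℝ) i • e i = e i0 := by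
      rw [Finset.sum_eq_single i0]
      · simp
      · intro j _ hj
        simp [Pi.single_eq_of_ne hj]
      · simp
    rwa [hs, hs2] at h
  have hlam0 : 0 < lam := by
    by_contra hcon
    push Not at hcon
    have := mul_nonpos_of_nonpos_of_nonneg hcon (norm_nonneg (e i0))
    linarith
  have he0 : e i0 ≠ 0 := by
    intro h
    rw [h, norm_zero, mul_zero] at h1
    linarith
  obtain ⟨ξ0, _, hξ0⟩ := exists_dual_vector ℝ (e i0) (norm_ne_zero_iff.2 he0)
  have hξne : ξ0 ≠ 0 := by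
    intro h
    rw [h] at hξ0
    simp only [zero_apply] at hξ0
    have : ‖e i0‖ = 0 := by
      have := hξ0.symm
      simpa using this
    exact he0 (norm_eq_zero.1 this)
  have hC1 : 1 ≤ C := one_le_of_hasCotype (by linarith) hC ξ0 hξne
  have hK0 : 0 ≤ K := by
    have h2 := hK (fun _ => e i0)
    have h3 : 0 ≤ L2 (Rad (fun _ : Cube k => e i0)) := L2_nonneg _
    have h4 : 0 < L2 (fun _ : Cube k => e i0) := by
      unfold L2
      apply Real.sqrt_pos.2
      have h5 : 0 < ‖e i0‖ := norm_pos_iff.2 he0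
      simp only [Finset.sum_const, Finset.card_univ, nsmul_eq_mul]
      positivity
    by_contra hcon
    push Not at hcon
    have := mul_neg_of_neg_of_pos hcon h4
    linarith
  have hlow := lower_bound (r := r) (C := C) (lam := lam) (K := K) (δ := 0) (by linarith)
    (by linarith) hK0 hlam0.le (by simp) hC e he (ContinuousLinearMap.id ℝ X) (by simp)
    (by simpa using hK)
  simpa using hlow

universe u

theorem all :
    (∀ (X : Type u) [NormedAddCommGroup X] [NormedSpace ℝ X] (r C lam : ℝ) (k : ℕ)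
      (e : Fin k → X) (S : X →L[ℝ] X), 2 ≤ r → HasCotype (StrongDual ℝ X) r C →
      IsL1Copy e lam → 1 ≤ k → FiniteDimensional ℝ (LinearMap.range (S : X →ₗ[ℝ] X)) →
      (∀ i, ‖S (e i) - e i‖ ≤ 1 / (2 * lam)) →
      (k : ℝ) ^ (1 / r) ≤ 10 * C * lam * ‖S‖ *
        (1 + Real.log (finrank ℝ (LinearMap.range (S : X →ₗ[ℝ] X))))) ∧
    (∀ (X : Type u) [NormedAddCommGroup X] [NormedSpace ℝ X] (r C mu : ℝ) (m : ℕ → ℕ),
      2 ≤ r → HasCotype (StrongDual ℝ X) r C → HasRankBAP X mu m →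
      (∀ c : ℝ, 0 < c → ∃ᶠ k in atTop, Real.log (m k) ≤ c * (k : ℝ) ^ (1 / r)) →
      ¬ ContainsL1Uniformly X) ∧
    (∀ (X : Type u) [NormedAddCommGroup X] [NormedSpace ℝ X] (r C lam K : ℝ) (k : ℕ)
      (e : Fin k → X), 2 ≤ r → HasCotype (StrongDual ℝ X) r C → IsL1Copy e lam → 1 ≤ k →
      (∀ f : Cube k → X, L2 (Rad f) ≤ K * L2 f) → (k : ℝ) ^ (1 / r) ≤ C * lam * K) := by
  refine ⟨fun X _ _ r C lam k e S hr hC he hk hS hSe => main r C lam k e S hr hC he hk hS hSe, ?_,
    fun X _ _ r C lam K k e hr hC he hk hK => gap r C lam K k e hr hC he hk hK⟩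
  intro X _ _ r C mu m hr hC hBAP hfreq ⟨lam, hcopy⟩
  have hr0 : 0 < 1 / r := by positivity
  -- the basic inequality for every `k ≥ 1`
  have key : ∀ k : ℕ, 1 ≤ k → 0 < lam ∧ 0 < C ∧ 0 ≤ mu ∧
      (k : ℝ) ^ (1 / r) ≤ 10 * C * lam * mu * (1 + Real.log (m k)) := by
    intro k hk
    obtain ⟨e, he⟩ := hcopy k
    have hlam : 0 < lam := by
      have i0 : Fin k := ⟨0, hk⟩
      have h := he.2 (Pi.single i0 1)
      have hs : ∑ i, |(Pi.single i0 (1 : ℝ) : Fin k → ℝ) i| = 1 := by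
        rw [Finset.sum_eq_single i0]
        · simp
        · intro j _ hj
          simp [Pi.single_eq_of_ne hj]
        · simp
      rw [hs] at h
      by_contra hcon
      push Not at hcon
      have := mul_nonpos_of_nonpos_of_nonneg hcon
        (norm_nonneg (∑ i, (Pi.single i0 (1 : ℝ) : Fin k → ℝ) i • e i))
      linarith
    obtain ⟨S, hS, hrank, hSmu, hSe⟩ := hBAP k e (1 / (2 * lam)) (by positivity)
    have hmain := main r C lam k e S hr hC he hk hS hSe
    have hkpos : 0 < (k : ℝ) ^ (1 / r) := by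
      apply Real.rpow_pos_of_pos
      exact_mod_cast hk
    have hlogn : 0 ≤ Real.log (finrank ℝ (LinearMap.range (S : X →ₗ[ℝ] X)) : ℝ) :=
      Real.log_natCast_nonneg _
    have hlogle : Real.log (finrank ℝ (LinearMap.range (S : X →ₗ[ℝ] X)) : ℝ) ≤ Real.log (m k) := by
      rcases Nat.eq_zero_or_pos (finrank ℝ (LinearMap.range (S : X →ₗ[ℝ] X))) with h0 | h0
      · rw [h0]
        simpa using Real.log_natCast_nonneg (m k)
      · apply Real.log_le_log
        · exact_mod_cast h0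
        · exact_mod_cast hrank
    have hSn : 0 ≤ ‖S‖ := norm_nonneg _
    have hCpos : 0 < C := by
      by_contra hcon
      push Not at hcon
      have h1 : 10 * C * lam * ‖S‖ *
          (1 + Real.log (finrank ℝ (LinearMap.range (S : X →ₗ[ℝ] X)) : ℝ)) ≤ 0 := by
        have h2 : 0 ≤ lam * ‖S‖ *
          (1 + Real.log (finrank ℝ (LinearMap.range (S : X →ₗ[ℝ] X)) : ℝ)) := by positivity
        nlinarith
      linarith
    refine ⟨hlam, hCpos, hSn.trans hSmu, hmain.trans ?_⟩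
    have h3 : 0 ≤ 10 * C * lam := by positivity
    calc 10 * C * lam * ‖S‖ * (1 + Real.log (finrank ℝ (LinearMap.range (S : X →ₗ[ℝ] X)) : ℝ))
        ≤ 10 * C * lam * mu * (1 + Real.log (finrank ℝ (LinearMap.range (S : X →ₗ[ℝ] X)) : ℝ)) := by
          apply mul_le_mul_of_nonneg_right _ (by linarith)
          exact mul_le_mul_of_nonneg_left hSmu h3
      _ ≤ 10 * C * lam * mu * (1 + Real.log (m k)) := by
          apply mul_le_mul_of_nonneg_left (by linarith)
          exact mul_nonneg h3 (hSn.trans hSmu)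
  obtain ⟨hlam, hCpos, hmu, -⟩ := key 1 le_rfl
  set D : ℝ := 10 * C * lam * mu with hD
  have hD0 : 0 ≤ D := by positivity
  have hev : ∀ᶠ k : ℕ in atTop, 2 * D < (k : ℝ) ^ (1 / r) :=
    ((tendsto_rpow_atTop hr0).comp tendsto_natCast_atTop_atTop).eventually_gt_atTop (2 * D)
  have hev1 : ∀ᶠ k : ℕ in atTop, 1 ≤ k := eventually_ge_atTop 1
  obtain ⟨k, hk1, hk2, hk3⟩ :=
    ((hfreq (1 / (2 * (D + 1))) (by positivity)).and_eventually (hev.and hev1)).exists
  obtain ⟨-, -, -, hk4⟩ := key k hk3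
  have hkpos : 0 ≤ (k : ℝ) ^ (1 / r) := by positivity
  have h5 : D * Real.log (m k) ≤ (k : ℝ) ^ (1 / r) / 2 := by
    have h6 : D * Real.log (m k) ≤ D * (1 / (2 * (D + 1)) * (k : ℝ) ^ (1 / r)) :=
      mul_le_mul_of_nonneg_left hk1 hD0
    have h7 : D * (1 / (2 * (D + 1)) * (k : ℝ) ^ (1 / r)) =
        (D / (D + 1)) * ((k : ℝ) ^ (1 / r) / 2) := by
      field_simp
    have h8 : D / (D + 1) ≤ 1 := by
      rw [div_le_one (by linarith)]
      linarith
    have h9 : (D / (D + 1)) * ((k : ℝ) ^ (1 / r) / 2) ≤ 1 * ((k : ℝ) ^ (1 / r) / 2) :=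
      mul_le_mul_of_nonneg_right h8 (by positivity)
    linarith
  have h10 : (k : ℝ) ^ (1 / r) ≤ D + D * Real.log (m k) := by
    have : D * (1 + Real.log (m k)) = D + D * Real.log (m k) := by ring
    linarith
  linarith

end Vale.Agent.P111.Final
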