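import Vale.Agent.P111.Defs

/-!
# P111: the Riesz product kernel

`ker z ε η = ∏ i, (1 + z ε_i η_i)`.

PLAN.
* `ker_real_nonneg`, `sum_ker_real`: for real `x ∈ [-1,1]` every factor `1 + x ε_i η_i` is `≥ 0`, and
  `∑ η, ∏ i, (1 + x ε_i η_i) = ∏ i, ∑ b, (1 + x ε_i sg b) = 2^s` (`Finset.prod_univ_sum` /
  `Fintype.piFinset`).
* `ker_real_bound`: Cauchy-Schwarz with the weights `ker x ε η` and `sum_ker_real` (the kernel is
  symmetric in `ε, η`).
* `ker_differentiable`, `ker_deriv_zero`: finite product of affine functions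
  (`HasDerivAt.finset_prod` / `HasDerivAt.fun_finset_prod`, at `z = 0` all factors are `1`).
-/

namespace Vale.Agent.P111

open Finset

/-- real version of the kernel -/
noncomputable def kerR {s : ℕ} (x : ℝ) (ε η : Cube s) : ℝ := ∏ i, (1 + x * sg (ε i) * sg (η i))

theorem ker_ofReal {s : ℕ} (x : ℝ) (ε η : Cube s) : ker (x : ℂ) ε η = ((kerR x ε η : ℝ) : ℂ) := by
  unfold ker kerR
  push_cast
  rfl

theorem kerR_nonneg {s : ℕ} (x : ℝ) (hx : |x| ≤ 1) (ε η : Cube s) : 0 ≤ kerR x ε η := by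
  unfold kerR
  obtain ⟨h1, h2⟩ := abs_le.mp hx
  refine Finset.prod_nonneg fun i _ => ?_
  cases ε i <;> cases η i <;> simp [sg] <;> linarith

theorem kerR_symm {s : ℕ} (x : ℝ) (ε η : Cube s) : kerR x ε η = kerR x η ε := by
  unfold kerR
  refine Finset.prod_congr rfl fun i _ => ?_
  ring

theorem sum_kerR {s : ℕ} (x : ℝ) (ε : Cube s) : ∑ η : Cube s, kerR x ε η = 2 ^ s := by
  unfold kerR
  have h := Finset.prod_univ_sum (fun _ : Fin s => (Finset.univ : Finset Bool))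
    (fun i b => 1 + x * sg (ε i) * sg b)
  rw [Fintype.piFinset_univ] at h
  rw [← h]
  have h2 : ∀ i : Fin s, ∑ b : Bool, (1 + x * sg (ε i) * sg b) = 2 := by
    intro i
    simp [sg]
    ring
  rw [Finset.prod_congr rfl (fun i _ => h2 i)]
  simp

/-- the positive kernel `kerR x` is a contraction on `L_2` (bilinear form version) -/
theorem kerR_bound {s : ℕ} (x : ℝ) (hx : |x| ≤ 1) (u v : Cube s → ℝ) (hu : ∀ ε, 0 ≤ u ε)
    (hv : ∀ ε, 0 ≤ v ε) :
    ∑ ε : Cube s, ∑ η : Cube s, kerR x ε η * (u ε * v η) ≤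
      2 ^ s * (Real.sqrt (∑ ε, u ε ^ 2) * Real.sqrt (∑ η, v η ^ 2)) := by
  have hK : ∀ ε η : Cube s, 0 ≤ kerR x ε η := kerR_nonneg x hx
  have hCS := Real.sum_mul_le_sqrt_mul_sqrt (Finset.univ : Finset (Cube s × Cube s))
    (fun p => Real.sqrt (kerR x p.1 p.2) * u p.1) (fun p => Real.sqrt (kerR x p.1 p.2) * v p.2)
  have e1 : ∑ p : Cube s × Cube s,
      (Real.sqrt (kerR x p.1 p.2) * u p.1) * (Real.sqrt (kerR x p.1 p.2) * v p.2)
      = ∑ ε : Cube s, ∑ η : Cube s, kerR x ε η * (u ε * v η) := by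
    rw [Fintype.sum_prod_type]
    refine Finset.sum_congr rfl fun ε _ => Finset.sum_congr rfl fun η _ => ?_
    have := Real.mul_self_sqrt (hK ε η)
    calc (Real.sqrt (kerR x ε η) * u ε) * (Real.sqrt (kerR x ε η) * v η)
        = (Real.sqrt (kerR x ε η) * Real.sqrt (kerR x ε η)) * (u ε * v η) := by ring
      _ = kerR x ε η * (u ε * v η) := by rw [this]
  have e2 : ∑ p : Cube s × Cube s, (Real.sqrt (kerR x p.1 p.2) * u p.1) ^ 2
      = 2 ^ s * ∑ ε, u ε ^ 2 := by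
    rw [Fintype.sum_prod_type, Finset.mul_sum]
    refine Finset.sum_congr rfl fun ε _ => ?_
    have : ∀ η : Cube s, (Real.sqrt (kerR x ε η) * u ε) ^ 2 = kerR x ε η * u ε ^ 2 := by
      intro η
      rw [mul_pow, Real.sq_sqrt (hK ε η)]
    simp only [this]
    rw [← Finset.sum_mul, sum_kerR]
  have e3 : ∑ p : Cube s × Cube s, (Real.sqrt (kerR x p.1 p.2) * v p.2) ^ 2
      = 2 ^ s * ∑ η, v η ^ 2 := by
    rw [Fintype.sum_prod_type_right, Finset.mul_sum]
    refine Finset.sum_congr rfl fun η _ => ?_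
    have : ∀ ε : Cube s, (Real.sqrt (kerR x ε η) * v η) ^ 2 = kerR x η ε * v η ^ 2 := by
      intro ε
      rw [mul_pow, Real.sq_sqrt (hK ε η), kerR_symm]
    simp only [this]
    rw [← Finset.sum_mul, sum_kerR]
  rw [e1, e2, e3] at hCS
  refine hCS.trans (le_of_eq ?_)
  have h2 : (0 : ℝ) ≤ 2 ^ s := by positivity
  rw [Real.sqrt_mul h2, Real.sqrt_mul h2]
  have := Real.mul_self_sqrt h2
  calc Real.sqrt (2 ^ s) * Real.sqrt (∑ ε, u ε ^ 2) * (Real.sqrt (2 ^ s) * Real.sqrt (∑ η, v η ^ 2))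
      = (Real.sqrt (2 ^ s) * Real.sqrt (2 ^ s)) *
        (Real.sqrt (∑ ε, u ε ^ 2) * Real.sqrt (∑ η, v η ^ 2)) := by ring
    _ = 2 ^ s * (Real.sqrt (∑ ε, u ε ^ 2) * Real.sqrt (∑ η, v η ^ 2)) := by rw [this]

theorem ker_hasDerivAt {s : ℕ} (ε η : Cube s) (z : ℂ) :
    HasDerivAt (fun z => ker z ε η)
      (∑ i, (∏ j ∈ Finset.univ.erase i, (1 + z * (sg (ε j) : ℂ) * (sg (η j) : ℂ))) •
        ((sg (ε i) : ℂ) * (sg (η i) : ℂ))) z := by
  unfold ker
  refine HasDerivAt.fun_finsetProd fun i _ => ?_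
  have h : HasDerivAt (fun z : ℂ => z * ((sg (ε i) : ℂ) * (sg (η i) : ℂ)))
      ((sg (ε i) : ℂ) * (sg (η i) : ℂ)) z := by
    simpa using (hasDerivAt_id z).mul_const ((sg (ε i) : ℂ) * (sg (η i) : ℂ))
  have h2 := h.const_add 1
  refine h2.congr_of_eventuallyEq (Filter.Eventually.of_forall fun w => ?_)
  simp only
  ring

/-- the kernel is a polynomial in `z` -/
theorem ker_differentiable {s : ℕ} (ε η : Cube s) : Differentiable ℂ (fun z => ker z ε η) :=
  fun z => (ker_hasDerivAt ε η z).differentiableAt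

theorem ker_deriv_zero {s : ℕ} (ε η : Cube s) :
    deriv (fun z => ker z ε η) 0 = ((∑ i, sg (ε i) * sg (η i) : ℝ) : ℂ) := by
  rw [(ker_hasDerivAt ε η 0).deriv]
  simp

end Vale.Agent.P111
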