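import Vale.Agent.P111.Defs

/-!
# P111: Walsh expansion of the Riesz product kernel, contraction on `L_2(H)` for complex `z`

PLAN.
* `ker_walsh`: `∏ i, (1 + a_i) = ∑ A, ∏ i ∈ A, a_i` (`Finset.prod_one_add` or `Finset.prod_add`).
* `walsh_orth`: `∑ A, w_A(η) w_A(η') = ∏ i, (1 + η_i η'_i) = 2^s [η = η']`.
* `ker_hilbert_bound`: with `Fh A = ∑ η, w_A(η) • F η`: the sum is `∑ A, z^|A| ⟪Gh A, Fh A⟫`; use
  `‖z^|A|‖ ≤ 1`, Cauchy-Schwarz twice and Parseval `∑ A, ‖Fh A‖² = 2^s ∑ η, ‖F η‖²` (from `walsh_orth`).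
-/

namespace Vale.Agent.P111

open Finset

/-- Walsh functions -/
noncomputable def walsh {s : ℕ} (A : Finset (Fin s)) (ε : Cube s) : ℝ := ∏ i ∈ A, sg (ε i)

theorem ker_walsh {s : ℕ} (z : ℂ) (ε η : Cube s) :
    ker z ε η = ∑ A : Finset (Fin s), z ^ A.card * ((walsh A ε * walsh A η : ℝ) : ℂ) := by
  unfold ker walsh
  rw [Finset.prod_one_add, Finset.powerset_univ]
  refine Finset.sum_congr rfl (fun A _ => ?_)
  push_cast
  rw [Finset.prod_mul_distrib, Finset.prod_mul_distrib, Finset.prod_const, mul_assoc]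

theorem sg_mul_self (b : Bool) : sg b * sg b = 1 := by
  cases b <;> simp [sg]

theorem sg_mul_ne {b c : Bool} (h : b ≠ c) : sg b * sg c = -1 := by
  cases b <;> cases c <;> simp_all [sg]

theorem walsh_orth {s : ℕ} (η η' : Cube s) :
    ∑ A : Finset (Fin s), walsh A η * walsh A η' = if η = η' then 2 ^ s else 0 := by
  have h1 : ∑ A : Finset (Fin s), walsh A η * walsh A η' = ∏ i, (1 + sg (η i) * sg (η' i)) := by
    rw [Finset.prod_one_add, Finset.powerset_univ]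
    refine Finset.sum_congr rfl (fun A _ => ?_)
    unfold walsh
    rw [Finset.prod_mul_distrib]
  rw [h1]
  split_ifs with h
  · subst h
    simp only [sg_mul_self]
    norm_num
  · obtain ⟨i, hi⟩ : ∃ i, η i ≠ η' i := by
      by_contra hcon
      apply h
      funext i
      by_contra h2
      exact hcon ⟨i, h2⟩
    apply Finset.prod_eq_zero (Finset.mem_univ i)
    rw [sg_mul_ne hi]
    norm_num

/-- the Walsh coefficients of a vector valued function -/
noncomputable def hat {s : ℕ} {H : Type*} [AddCommGroup H] [Module ℝ H] (F : Cube s → H)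
    (A : Finset (Fin s)) : H := ∑ η : Cube s, walsh A η • F η

theorem inner_hat {s : ℕ} {H : Type*} [NormedAddCommGroup H] [InnerProductSpace ℝ H]
    (G F : Cube s → H) (A : Finset (Fin s)) :
    inner ℝ (hat G A) (hat F A) =
      ∑ ε : Cube s, ∑ η : Cube s, (walsh A ε * walsh A η) * inner ℝ (G ε) (F η) := by
  unfold hat
  rw [sum_inner]
  refine Finset.sum_congr rfl (fun ε _ => ?_)
  rw [inner_sum]
  refine Finset.sum_congr rfl (fun η _ => ?_)
  rw [real_inner_smul_left, real_inner_smul_right]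
  ring

theorem parseval {s : ℕ} {H : Type*} [NormedAddCommGroup H] [InnerProductSpace ℝ H]
    (F : Cube s → H) :
    ∑ A : Finset (Fin s), ‖hat F A‖ ^ 2 = 2 ^ s * ∑ η : Cube s, ‖F η‖ ^ 2 := by
  have h1 : ∀ A : Finset (Fin s), ‖hat F A‖ ^ 2 =
      ∑ ε : Cube s, ∑ η : Cube s, (walsh A ε * walsh A η) * inner ℝ (F ε) (F η) := by
    intro A
    rw [← real_inner_self_eq_norm_sq, inner_hat]
  simp only [h1]
  rw [Finset.sum_comm]
  rw [Finset.mul_sum]
  refine Finset.sum_congr rfl (fun ε _ => ?_)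
  rw [Finset.sum_comm]
  have h2 : ∀ η : Cube s, ∑ A : Finset (Fin s), (walsh A ε * walsh A η) * inner ℝ (F ε) (F η)
      = (if ε = η then 2 ^ s else 0) * inner ℝ (F ε) (F η) := by
    intro η
    rw [← Finset.sum_mul, walsh_orth]
  simp only [h2]
  rw [Finset.sum_eq_single ε]
  · rw [if_pos rfl, real_inner_self_eq_norm_sq]
  · intro η _ hne
    rw [if_neg (Ne.symm hne), zero_mul]
  · intro h
    exact absurd (Finset.mem_univ _) h

/-- for `‖z‖ ≤ 1` the kernel `ker z` is a contraction on `L_2(H)`, `H` a Hilbert space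
(bilinear form version) -/
theorem ker_hilbert_bound {s : ℕ} {H : Type*} [NormedAddCommGroup H] [InnerProductSpace ℝ H]
    (z : ℂ) (hz : ‖z‖ ≤ 1) (G F : Cube s → H) :
    ‖∑ ε : Cube s, ∑ η : Cube s, ker z ε η * ((inner ℝ (G ε) (F η) : ℝ) : ℂ)‖ ≤
      2 ^ s * (Real.sqrt (∑ ε, ‖G ε‖ ^ 2) * Real.sqrt (∑ η, ‖F η‖ ^ 2)) := by
  have h1 : ∑ ε : Cube s, ∑ η : Cube s, ker z ε η * ((inner ℝ (G ε) (F η) : ℝ) : ℂ) =
      ∑ A : Finset (Fin s), z ^ A.card * ((inner ℝ (hat G A) (hat F A) : ℝ) : ℂ) := by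
    calc ∑ ε : Cube s, ∑ η : Cube s, ker z ε η * ((inner ℝ (G ε) (F η) : ℝ) : ℂ)
        = ∑ ε : Cube s, ∑ η : Cube s, ∑ A : Finset (Fin s),
            z ^ A.card * (((walsh A ε * walsh A η) * inner ℝ (G ε) (F η) : ℝ) : ℂ) := by
          refine Finset.sum_congr rfl (fun ε _ => Finset.sum_congr rfl (fun η _ => ?_))
          rw [ker_walsh, Finset.sum_mul]
          refine Finset.sum_congr rfl (fun A _ => ?_)
          push_cast
          ring
      _ = ∑ ε : Cube s, ∑ A : Finset (Fin s), ∑ η : Cube s,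
            z ^ A.card * (((walsh A ε * walsh A η) * inner ℝ (G ε) (F η) : ℝ) : ℂ) := by
          refine Finset.sum_congr rfl (fun ε _ => ?_)
          rw [Finset.sum_comm]
      _ = ∑ A : Finset (Fin s), ∑ ε : Cube s, ∑ η : Cube s,
            z ^ A.card * (((walsh A ε * walsh A η) * inner ℝ (G ε) (F η) : ℝ) : ℂ) := by
          rw [Finset.sum_comm]
      _ = ∑ A : Finset (Fin s), z ^ A.card * ((inner ℝ (hat G A) (hat F A) : ℝ) : ℂ) := by
          refine Finset.sum_congr rfl (fun A _ => ?_)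
          rw [inner_hat]
          push_cast
          rw [Finset.mul_sum]
          refine Finset.sum_congr rfl (fun ε _ => ?_)
          rw [Finset.mul_sum]
  rw [h1]
  have h2 : ∀ A : Finset (Fin s), ‖z ^ A.card * ((inner ℝ (hat G A) (hat F A) : ℝ) : ℂ)‖ ≤
      ‖hat G A‖ * ‖hat F A‖ := by
    intro A
    rw [norm_mul, norm_pow, Complex.norm_real]
    calc ‖z‖ ^ A.card * ‖(inner ℝ (hat G A) (hat F A) : ℝ)‖
        ≤ 1 * (‖hat G A‖ * ‖hat F A‖) :=
          mul_le_mul (pow_le_one₀ (norm_nonneg z) hz) (norm_inner_le_norm _ _) (norm_nonneg _)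
            zero_le_one
      _ = ‖hat G A‖ * ‖hat F A‖ := one_mul _
  have h3 : ∑ A : Finset (Fin s), ‖hat G A‖ * ‖hat F A‖ ≤
      Real.sqrt (∑ A : Finset (Fin s), ‖hat G A‖ ^ 2) *
        Real.sqrt (∑ A : Finset (Fin s), ‖hat F A‖ ^ 2) :=
    Real.sum_mul_le_sqrt_mul_sqrt _ _ _
  have h4 : Real.sqrt (∑ A : Finset (Fin s), ‖hat G A‖ ^ 2) *
        Real.sqrt (∑ A : Finset (Fin s), ‖hat F A‖ ^ 2) =
      2 ^ s * (Real.sqrt (∑ ε, ‖G ε‖ ^ 2) * Real.sqrt (∑ η, ‖F η‖ ^ 2)) := by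
    rw [parseval, parseval, Real.sqrt_mul (by positivity), Real.sqrt_mul (by positivity)]
    have h5 : Real.sqrt ((2 : ℝ) ^ s) * Real.sqrt ((2 : ℝ) ^ s) = 2 ^ s :=
      Real.mul_self_sqrt (by positivity)
    calc Real.sqrt ((2 : ℝ) ^ s) * Real.sqrt (∑ ε, ‖G ε‖ ^ 2) *
          (Real.sqrt ((2 : ℝ) ^ s) * Real.sqrt (∑ η, ‖F η‖ ^ 2))
        = (Real.sqrt ((2 : ℝ) ^ s) * Real.sqrt ((2 : ℝ) ^ s)) *
          (Real.sqrt (∑ ε, ‖G ε‖ ^ 2) * Real.sqrt (∑ η, ‖F η‖ ^ 2)) := by ring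
      _ = _ := by rw [h5]
  calc ‖∑ A : Finset (Fin s), z ^ A.card * ((inner ℝ (hat G A) (hat F A) : ℝ) : ℂ)‖
      ≤ ∑ A : Finset (Fin s), ‖z ^ A.card * ((inner ℝ (hat G A) (hat F A) : ℝ) : ℂ)‖ :=
        norm_sum_le _ _
    _ ≤ ∑ A : Finset (Fin s), ‖hat G A‖ * ‖hat F A‖ := Finset.sum_le_sum (fun A _ => h2 A)
    _ ≤ _ := h3
    _ = _ := h4

end Vale.Agent.P111
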