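import Vale.Agent.P111.Analytic
import Vale.Agent.P111.Kernel
import Vale.Agent.P111.Walsh
import Vale.Agent.P111.Duality

/-!
# P111: the Rademacher projection of an operator factoring through a Hilbert space

`‖Rad ⊗ (B A)‖ ≤ 5 m (1 + log (M / m))` if `‖B A‖ ≤ m` and `‖A‖ ‖B‖ ≤ M`.

PLAN.  Fix `f : Cube s → X`, `g : Cube s → X^*` and put
`phi z = 4^{-s} ∑ ε η, ker z ε η * g ε (B (A (f η)))`.
* `phi` is entire (`ker_differentiable`), `deriv phi 0 = pair g (Rad (B A f))`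
  (`ker_deriv_zero`, `pair_Rad_eq`).
* real `x`, `|x| ≤ 1`: `‖phi x‖ ≤ m L2 g L2 f` (`ker_ofReal`, `kerR_nonneg`, `kerR_bound` with
  `u = ‖g ·‖`, `v = ‖f ·‖`, `|g ε (B A f η)| ≤ ‖g ε‖ m ‖f η‖`).
* `‖z‖ ≤ 1`: `g ε (B h) = ⟪G ε, h⟫` with `G ε = (InnerProductSpace.toDual ℝ H).symm ((g ε).comp B)`,
  `‖G ε‖ ≤ ‖g ε‖ ‖B‖`; `ker_hilbert_bound` gives `‖phi z‖ ≤ M L2 g L2 f`.
* `deriv_bound` with `m L2 g L2 f`, `M L2 g L2 f` (if `L2 g L2 f = 0` then `phi = 0` on the disc, or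
  treat this case directly with `abs_pair_le` after noting that `f = 0` or `g = 0`), then
  `L2_le_of_pair`.
-/

namespace Vale.Agent.P111

open Finset

variable {X : Type*} [NormedAddCommGroup X] [NormedSpace ℝ X]
variable {H : Type*} [NormedAddCommGroup H] [InnerProductSpace ℝ H] [CompleteSpace H]

/-- the scalar function interpolating between the identity and the Rademacher projection -/
noncomputable def phi {s : ℕ} (T : X →L[ℝ] X) (f : Cube s → X) (g : Cube s → StrongDual ℝ X)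
    (z : ℂ) : ℂ :=
  (∑ ε : Cube s, ∑ η : Cube s, ker z ε η * ((g ε (T (f η)) : ℝ) : ℂ)) / 4 ^ s

theorem phi_hasDerivAt {s : ℕ} (T : X →L[ℝ] X) (f : Cube s → X)
    (g : Cube s → StrongDual ℝ X) (z : ℂ) :
    HasDerivAt (phi T f g)
      ((∑ ε : Cube s, ∑ η : Cube s,
        deriv (fun z => ker z ε η) z * ((g ε (T (f η)) : ℝ) : ℂ)) / 4 ^ s) z := by
  unfold phi
  apply HasDerivAt.div_const
  apply HasDerivAt.fun_sum
  intro ε _
  apply HasDerivAt.fun_sum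
  intro η _
  apply HasDerivAt.mul_const
  exact (ker_differentiable ε η z).hasDerivAt

theorem phi_differentiable {s : ℕ} (T : X →L[ℝ] X) (f : Cube s → X)
    (g : Cube s → StrongDual ℝ X) : Differentiable ℂ (phi T f g) := by
  intro z
  exact (phi_hasDerivAt T f g z).differentiableAt

theorem phi_deriv_zero {s : ℕ} (T : X →L[ℝ] X) (f : Cube s → X) (g : Cube s → StrongDual ℝ X) :
    deriv (phi T f g) 0 = ((pair g (Rad (fun ε => T (f ε))) : ℝ) : ℂ) := by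
  rw [(phi_hasDerivAt T f g 0).deriv, pair_Rad_eq]
  push_cast
  congr 1
  apply Finset.sum_congr rfl
  intro ε _
  apply Finset.sum_congr rfl
  intro η _
  rw [ker_deriv_zero]
  push_cast
  rfl

theorem L2_mul_L2 {s : ℕ} {Y Z : Type*} [Norm Y] [Norm Z] (g : Cube s → Y) (f : Cube s → Z) :
    2 ^ s * (Real.sqrt (∑ ε, ‖g ε‖ ^ 2) * Real.sqrt (∑ η, ‖f η‖ ^ 2)) / 4 ^ s = L2 g * L2 f := by
  unfold L2
  have h2 : (0 : ℝ) < 2 ^ s := by positivity
  have h4 : (4 : ℝ) ^ s = 2 ^ s * 2 ^ s := by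
    rw [← mul_pow]; norm_num
  rw [Real.sqrt_div' _ h2.le, Real.sqrt_div' _ h2.le, h4]
  have hs : Real.sqrt (2 ^ s) * Real.sqrt (2 ^ s) = 2 ^ s := Real.mul_self_sqrt h2.le
  have hs0 : 0 < Real.sqrt (2 ^ s) := Real.sqrt_pos.mpr h2
  rw [div_mul_div_comm, hs]
  field_simp

theorem phi_real_bound {s : ℕ} (T : X →L[ℝ] X) (f : Cube s → X) (g : Cube s → StrongDual ℝ X)
    (x : ℝ) (hx : |x| ≤ 1) : ‖phi T f g (x : ℂ)‖ ≤ ‖T‖ * (L2 g * L2 f) := by
  have h4 : (0 : ℝ) < 4 ^ s := by positivity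
  have e1 : phi T f g (x : ℂ) =
      (((∑ ε : Cube s, ∑ η : Cube s, kerR x ε η * g ε (T (f η))) / 4 ^ s : ℝ) : ℂ) := by
    unfold phi
    push_cast
    congr 1
    apply Finset.sum_congr rfl
    intro ε _
    apply Finset.sum_congr rfl
    intro η _
    rw [ker_ofReal]
  rw [e1, Complex.norm_real, Real.norm_eq_abs, abs_div, abs_of_pos h4, ← L2_mul_L2 g f,
    ← mul_div_assoc]
  apply div_le_div_of_nonneg_right _ h4.le
  calc |∑ ε : Cube s, ∑ η : Cube s, kerR x ε η * g ε (T (f η))|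
      ≤ ∑ ε : Cube s, ∑ η : Cube s, ‖T‖ * (kerR x ε η * (‖g ε‖ * ‖f η‖)) := by
        refine (Finset.abs_sum_le_sum_abs _ _).trans (Finset.sum_le_sum fun ε _ => ?_)
        refine (Finset.abs_sum_le_sum_abs _ _).trans (Finset.sum_le_sum fun η _ => ?_)
        rw [abs_mul, abs_of_nonneg (kerR_nonneg x hx ε η)]
        have h1 : |g ε (T (f η))| ≤ ‖g ε‖ * (‖T‖ * ‖f η‖) := by
          rw [← Real.norm_eq_abs]
          exact ((g ε).le_opNorm _).trans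
            (mul_le_mul_of_nonneg_left (T.le_opNorm _) (norm_nonneg _))
        calc kerR x ε η * |g ε (T (f η))| ≤ kerR x ε η * (‖g ε‖ * (‖T‖ * ‖f η‖)) :=
              mul_le_mul_of_nonneg_left h1 (kerR_nonneg x hx ε η)
          _ = ‖T‖ * (kerR x ε η * (‖g ε‖ * ‖f η‖)) := by ring
    _ = ‖T‖ * ∑ ε : Cube s, ∑ η : Cube s, kerR x ε η * (‖g ε‖ * ‖f η‖) := by
        simp only [Finset.mul_sum]
    _ ≤ ‖T‖ * (2 ^ s * (Real.sqrt (∑ ε, ‖g ε‖ ^ 2) * Real.sqrt (∑ η, ‖f η‖ ^ 2))) := by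
        apply mul_le_mul_of_nonneg_left _ (norm_nonneg _)
        exact kerR_bound x hx (fun ε => ‖g ε‖) (fun η => ‖f η‖) (fun _ => norm_nonneg _)
          (fun _ => norm_nonneg _)

theorem sqrt_sum_le {s : ℕ} (u v : Cube s → ℝ) (c : ℝ) (hc : 0 ≤ c) (hu : ∀ ε, 0 ≤ u ε)
    (h : ∀ ε, u ε ≤ c * v ε) :
    Real.sqrt (∑ ε, u ε ^ 2) ≤ c * Real.sqrt (∑ ε, v ε ^ 2) := by
  have : c * Real.sqrt (∑ ε, v ε ^ 2) = Real.sqrt (c ^ 2 * ∑ ε, v ε ^ 2) := by
    rw [Real.sqrt_mul (sq_nonneg c), Real.sqrt_sq hc]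
  rw [this]
  apply Real.sqrt_le_sqrt
  rw [Finset.mul_sum]
  apply Finset.sum_le_sum
  intro ε _
  rw [← mul_pow]
  exact pow_le_pow_left₀ (hu ε) (h ε) 2

theorem phi_complex_bound {s : ℕ} (A : X →L[ℝ] H) (B : H →L[ℝ] X) (f : Cube s → X)
    (g : Cube s → StrongDual ℝ X) (z : ℂ) (hz : ‖z‖ ≤ 1) :
    ‖phi (B.comp A) f g z‖ ≤ ‖A‖ * ‖B‖ * (L2 g * L2 f) := by
  have h4 : (0 : ℝ) < 4 ^ s := by positivity
  set G : Cube s → H := fun ε => (InnerProductSpace.toDual ℝ H).symm ((g ε).comp B) with hG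
  set F : Cube s → H := fun η => A (f η) with hF
  have e1 : phi (B.comp A) f g z =
      (∑ ε : Cube s, ∑ η : Cube s, ker z ε η * ((inner ℝ (G ε) (F η) : ℝ) : ℂ)) / 4 ^ s := by
    unfold phi
    congr 1
    apply Finset.sum_congr rfl
    intro ε _
    apply Finset.sum_congr rfl
    intro η _
    rw [hG, hF]
    simp only [InnerProductSpace.toDual_symm_apply]
    rfl
  have hGn : ∀ ε, ‖G ε‖ ≤ ‖B‖ * ‖g ε‖ := by
    intro ε
    rw [hG]
    simp only [LinearIsometryEquiv.norm_map]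
    rw [mul_comm]
    exact ContinuousLinearMap.opNorm_comp_le _ _
  have hFn : ∀ η, ‖F η‖ ≤ ‖A‖ * ‖f η‖ := fun η => A.le_opNorm _
  rw [e1, norm_div, ← L2_mul_L2 g f, ← mul_div_assoc]
  have : ‖(4 : ℂ) ^ s‖ = 4 ^ s := by
    rw [norm_pow]; norm_num
  rw [this]
  apply div_le_div_of_nonneg_right _ h4.le
  refine (ker_hilbert_bound z hz G F).trans ?_
  have h1 := sqrt_sum_le (fun ε => ‖G ε‖) (fun ε => ‖g ε‖) ‖B‖ (norm_nonneg _)
    (fun _ => norm_nonneg _) hGn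
  have h2 := sqrt_sum_le (fun ε => ‖F ε‖) (fun ε => ‖f ε‖) ‖A‖ (norm_nonneg _)
    (fun _ => norm_nonneg _) hFn
  have h3 := mul_le_mul h1 h2 (Real.sqrt_nonneg _)
    (mul_nonneg (norm_nonneg _) (Real.sqrt_nonneg _))
  have h2s : (0 : ℝ) ≤ 2 ^ s := by positivity
  calc 2 ^ s * (Real.sqrt (∑ ε, ‖G ε‖ ^ 2) * Real.sqrt (∑ η, ‖F η‖ ^ 2))
      ≤ 2 ^ s * (‖B‖ * Real.sqrt (∑ ε, ‖g ε‖ ^ 2) * (‖A‖ * Real.sqrt (∑ ε, ‖f ε‖ ^ 2))) :=
        mul_le_mul_of_nonneg_left h3 h2s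
    _ = ‖A‖ * ‖B‖ * (2 ^ s * (Real.sqrt (∑ ε, ‖g ε‖ ^ 2) * Real.sqrt (∑ η, ‖f η‖ ^ 2))) := by
        ring

theorem log_bound (A : X →L[ℝ] H) (B : H →L[ℝ] X) (m M : ℝ) (hm : 0 < m) (hmM : m ≤ M)
    (hT : ‖B.comp A‖ ≤ m) (hAB : ‖A‖ * ‖B‖ ≤ M) {s : ℕ} (f : Cube s → X) :
    L2 (Rad (fun ε => B (A (f ε)))) ≤ 5 * m * (1 + Real.log (M / m)) * L2 f := by
  have hlog : 0 ≤ Real.log (M / m) := Real.log_nonneg ((one_le_div hm).mpr hmM)
  set C : ℝ := 5 * m * (1 + Real.log (M / m)) with hC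
  have hCpos : 0 < C := by positivity
  apply L2_le_of_pair _ _ (mul_nonneg hCpos.le (L2_nonneg f))
  intro g
  set K : ℝ := L2 g * L2 f with hK
  have hK0 : 0 ≤ K := mul_nonneg (L2_nonneg g) (L2_nonneg f)
  have key : ∀ t : ℝ, 0 < t → K ≤ t → ‖deriv (phi (B.comp A) f g) 0‖ ≤ C * t := by
    intro t ht hKt
    have hb := deriv_bound (phi (B.comp A) f g) (phi_differentiable _ f g) (m * t) (M * t)
      (mul_pos hm ht) (mul_le_mul_of_nonneg_right hmM ht.le)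
      (fun x hx => (phi_real_bound (B.comp A) f g x hx).trans
        (mul_le_mul hT hKt hK0 hm.le))
      (fun z hz => (phi_complex_bound A B f g z hz).trans
        (mul_le_mul hAB hKt hK0 (hm.le.trans hmM)))
    rw [mul_div_mul_right _ _ ht.ne'] at hb
    calc ‖deriv (phi (B.comp A) f g) 0‖ ≤ 5 * (m * t) * (1 + Real.log (M / m)) := hb
      _ = C * t := by rw [hC]; ring
  have hfin : ‖deriv (phi (B.comp A) f g) 0‖ ≤ C * K := by
    apply le_of_forall_pos_le_add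
    intro δ hδ
    have := key (K + δ / C) (by positivity) (by
      have : 0 < δ / C := by positivity
      linarith)
    calc ‖deriv (phi (B.comp A) f g) 0‖ ≤ C * (K + δ / C) := this
      _ = C * K + δ := by field_simp
  rw [phi_deriv_zero, Complex.norm_real, Real.norm_eq_abs] at hfin
  calc |pair g (Rad fun ε => B (A (f ε)))| ≤ C * K := hfin
    _ = C * L2 f * L2 g := by rw [hK]; ring

end Vale.Agent.P111
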